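import Vale.Agent.P088.H599.S.Small

/-!
# P088: joint local uniqueness near an arbitrary pair with conformally flat metric, small balls
-/

set_option linter.all false

open MeasureTheory Set
open scoped ContDiff Matrix

noncomputable section

namespace Vale.Agent.P088.H599.S

open Vale.Agent.P088.LR Vale.Agent.P088.LR.CF Vale.Agent.P088.LR.H925 Vale.Agent.P088.LR.H158
open Vale.Agent.P088.LR.U Vale.Agent.P088.H798
open Vale.Agent.P088.H207.J (bB bB_open bB_reg bB_box)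

variable {n N : ℕ}

/-- Joint rigidity near the pair `(c e, α)`, perturbations on the ball of radius `R`. -/
def LocAt (n N k : ℕ) (c : V n → ℝ) (α : Cn n N) (R ε : ℝ) : Prop := ∀ g : MF n, SmM g →
  (∀ x, (g x).PosDef) → (∀ x ∉ bB n R, g x = sc c x) →
  (∀ i j, Cl k ε (fun x => g x i j - sc c x i j)) →
  ∀ A₂ : Cn n N, SmU A₂ → (∀ i, ∀ x ∉ bB n R, A₂ i x = α i x) →
  (∀ i a b, Cl k ε (fun x => A₂ i x a b - α i x a b)) →
  OrU (bB n R) (LR.sg (sc c)) α (LR.sg g) A₂ →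
  ∃ (w K : V n → V n) (U : MC n N), Dif (bB n R) w K ∧
    (∀ x, g x = c (x + w x) • ((jm w x)ᵀ * jm w x)) ∧ SmC U ∧ (∀ x, (U x)ᴴ * U x = 1) ∧
    (∀ x ∉ bB n R, U x = 1) ∧
    ∀ i, ∀ x ∈ bB n R, A₂ i x = (U x)ᴴ * pb w α i x * U x + (U x)ᴴ * pdm i U x

/-- The dilated base pair is small. -/
theorem base_small {N : ℕ} (k : ℕ) {B ε : ℝ} (hB : 0 < B) (hχ : Cl k B (chi442 : V n → ℝ))
    (hε : 0 < ε) {τ : V n → ℝ} (hτ : ContDiff ℝ ∞ τ) (hτ0 : τ 0 = 1) {α : Cn n N}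
    (hα : SmU α) : ∃ t₀ > 0, ∀ t, 0 < t → t ≤ t₀ →
      Cl k ε (fun y => chi442 y * (τ (ps t y) - 1)) ∧
      ∀ i a b, Cl k ε (fun y => cA t α i y a b) := by
  have hδ : 0 < ε / (2 ^ k * B) := by positivity
  have hfin : 2 ^ k * (B * (ε / (2 ^ k * B))) = ε := by field_simp
  obtain ⟨t₁, ht₁, h1⟩ := small_ps (f := fun x => τ x - 1) (hτ.sub contDiff_const)
    (by simp [hτ0]) k hδ
  have h2 : ∀ p : Fin n × Fin N × Fin N, ∃ t₀ > 0, ∀ t, 0 < t → t ≤ t₀ → ∀ y ∈ core n, ∀ l ≤ k,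
      ‖iteratedFDeriv ℝ l (fun y => t • α p.1 (ps t y) p.2.1 p.2.2) y‖ ≤ ε / (2 ^ k * B) :=
    fun p => small_ps' (f := fun x => α p.1 x p.2.1 p.2.2) (hα.1 _ _ _) k hδ
  choose T hT hT2 using h2
  obtain ⟨t₂, ht₂, hle⟩ : ∃ t₂ > 0, ∀ p, t₂ ≤ T p := by
    by_cases hne : Nonempty (Fin n × Fin N × Fin N)
    · refine ⟨Finset.univ.inf' Finset.univ_nonempty T, ?_, fun p =>
        Finset.inf'_le _ (Finset.mem_univ p)⟩
      rw [gt_iff_lt, Finset.lt_inf'_iff]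
      exact fun p _ => hT p
    · exact ⟨1, one_pos, fun p => (hne ⟨p⟩).elim⟩
  refine ⟨min t₁ t₂, lt_min ht₁ ht₂, fun t ht0 ht => ⟨?_, fun i a b => ?_⟩⟩
  · have h3 := cl_chi hB.le hδ.le hχ
      (g := fun y => τ (ps t y) - 1) ((hτ.comp (contDiff_ps t)).sub contDiff_const)
      (h1 t ht0 (ht.trans (min_le_left _ _)))
    rw [hfin] at h3
    exact h3
  · have h3 := cl_chi hB.le hδ.le hχ
      (g := fun y => t • α i (ps t y) a b) (((hα.1 i a b).comp (contDiff_ps t)).const_smul t)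
      (hT2 (i, a, b) t ht0 ((ht.trans (min_le_right _ _)).trans (hle _)))
    rw [hfin] at h3
    have h4 : (fun y => cA t α i y a b) = fun y => chi442 y • (t • α i (ps t y) a b) := by
      funext y
      show (((chi442 y : ℝ) : ℂ) • ((t : ℂ) • α i (ps t y))) a b = _
      rw [Matrix.smul_apply, Matrix.smul_apply, smul_eq_mul, smul_eq_mul, Complex.real_smul,
        Complex.real_smul]
    rw [h4]
    exact h3

/-- Joint local uniqueness near `(c e, α)`: no smallness of `c` and `α`. -/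
theorem locAt (hn : 3 ≤ n) (hRig : ∃ (k : ℕ) (ε : ℝ), 0 < ε ∧ RigU n N k ε) :
    ∃ k : ℕ, ∀ c : V n → ℝ, ContDiff ℝ ∞ c → (∀ x, 0 < c x) → ∀ α : Cn n N, SmU α →
      ∃ r₀ > 0, ∀ R : ℝ, 0 < R → R ≤ r₀ → ∃ ε > 0, LocAt n N k c α R ε := by
  obtain ⟨k, ε₀, hε₀, hrig⟩ := hRig
  refine ⟨k, fun c hc hc0 α hα => ?_⟩
  obtain ⟨B, hB, hχ⟩ := chi_cl442 n k
  have hσs : ContDiff ℝ ∞ (sgm442 c) := sgm_smooth442 hc hc0
  have hσp : ∀ x, 0 < sgm442 c x := sgm_pos442 hc0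
  obtain ⟨κ, hκ⟩ : ∃ κ : ℝ, κ = sgm442 c 0 := ⟨_, rfl⟩
  have hκ0 : 0 < κ := hκ ▸ hσp 0
  obtain ⟨τ, hτ⟩ : ∃ τ : V n → ℝ, τ = fun x => κ⁻¹ * sgm442 c x := ⟨_, rfl⟩
  have hτs : ContDiff ℝ ∞ τ := by rw [hτ]; exact contDiff_const.mul hσs
  have hτ0 : τ 0 = 1 := by
    rw [hτ]
    simp only
    rw [← hκ, inv_mul_cancel₀ hκ0.ne']
  have hτp : ∀ x, 0 < τ x := fun x => by rw [hτ]; exact mul_pos (inv_pos.2 hκ0) (hσp x)
  obtain ⟨t₀, ht₀, hsm⟩ := base_small (n := n) k hB hχ (half_pos hε₀) hτs hτ0 hα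
  refine ⟨t₀ / (8 * (n + 1)), by positivity, fun R hR hRr => ?_⟩
  obtain ⟨t, ht⟩ : ∃ t : ℝ, t = 8 * (n + 1) * R := ⟨_, rfl⟩
  have ht0 : 0 < t := by rw [ht]; positivity
  have htt : t ≤ t₀ := by
    rw [ht]
    rw [le_div_iff₀ (by positivity)] at hRr
    linarith
  obtain ⟨hb1, hb2⟩ := hsm t ht0 htt
  obtain ⟨c', hc'⟩ : ∃ c' : V n → ℝ, c' = fun y => c (ps t y) := ⟨_, rfl⟩
  have hc's : ContDiff ℝ ∞ c' := hc' ▸ hc.comp (contDiff_ps t)
  have hc'0 : ∀ y, 0 < c' y := fun y => by rw [hc']; exact hc0 _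
  have hε₁ : 0 < κ * (ε₀ / 2) / (2 ^ k * B) := by positivity
  obtain ⟨δ, hδ, hnorm⟩ := Vale.Agent.P088.H607.norm_base607 c' hc's hc'0 k hε₁
  have hM : 0 < max 1 t ^ k := by positivity
  refine ⟨min (δ / max 1 t ^ k) ((ε₀ / 2) / (2 ^ k * (B * (t * max 1 t ^ k)))), by positivity, ?_⟩
  intro g hg hgp hoff hgcl A₂ hA₂ hAoff hA₂cl hor
  have hs1e : LR.sg (sc c) = sc (sgm442 c) := sg_sc442 hc0
  have hsgs : SmM (LR.sg g) := H442.smM_sg442 hg hgp
  have hoff2 : ∀ x ∉ bB n R, LR.sg g x = sc (sgm442 c) x := by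
    intro x hx
    rw [← hs1e]
    unfold LR.sg
    rw [hoff x hx]
  -- the dilated ball is in the core
  have hcore : ∀ y ∉ core n, ps t y ∉ bB n R := by
    intro y hy hy'
    refine hy fun j => ?_
    have h2 := bB_box hR _ hy' j
    simp only [ps, Pi.smul_apply, Pi.sub_apply, smul_eq_mul] at h2
    rw [abs_mul, abs_of_pos ht0, ht] at h2
    have h3 : |y j - 1 / 2| ≤ 1 / 8 := by
      have h4 : |y j - 1 / 2| * 8 * R ≤ 1 * R := by
        have h5 : 0 ≤ |y j - 1 / 2| := abs_nonneg _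
        have h6 : (0 : ℝ) ≤ n := Nat.cast_nonneg n
        nlinarith [mul_nonneg (mul_nonneg h5 hR.le) h6]
      have h5 := le_of_mul_le_mul_right h4 hR
      linarith
    rw [abs_le] at h3
    constructor <;> linarith [h3.1, h3.2]
  obtain ⟨g', hg'⟩ : ∃ g' : MF n, g' = fun y => g (ps t y) := ⟨_, rfl⟩
  have hg's : SmM g' := fun i j => by rw [hg']; exact (hg i j).comp (contDiff_ps t)
  have hg'p : ∀ y, (g' y).PosDef := fun y => by rw [hg']; exact hgp _
  have hg'off : ∀ y ∉ core n, g' y = sc c' y := fun y hy => by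
    rw [hg', hc']
    exact hoff _ (hcore y hy)
  have hg'cl : ∀ i j, Cl k δ (fun y => g' y i j - sc c' y i j) := by
    intro i j
    have h1 := cl_ps ((hg i j).sub (smM_sc442 hc i j)) ht0
      (Vale.Agent.P088.LR.H72.cl_mono (hgcl i j) (min_le_left _ _))
    rw [mul_div_cancel₀ _ hM.ne'] at h1
    rw [hg', hc']
    exact h1
  have hsgcl := hnorm g' hg's hg'p hg'off hg'cl
  -- the normalised tensor
  obtain ⟨s, hs⟩ : ∃ s : MF n, s = fun x => κ⁻¹ • LR.sg g x := ⟨_, rfl⟩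
  have hss : SmM s := fun i j => by
    have h1 : (fun x => s x i j) = fun x => κ⁻¹ * LR.sg g x i j := by rw [hs]; rfl
    rw [h1]
    exact contDiff_const.mul (hsgs i j)
  have hsy : ∀ x, (s x).IsSymm := fun x => by
    rw [hs]
    exact (H442.symm_sg442 hgp x).smul _
  have hτe : ∀ x, sc τ x = κ⁻¹ • sc (sgm442 c) x := fun x => by
    rw [hτ]
    unfold sc
    rw [smul_smul]
  have hsoff : ∀ x ∉ bB n R, s x = sc τ x := fun x hx => by
    rw [hτe, hs]
    simp only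
    rw [hoff2 x hx]
  have hfin : 2 ^ k * (B * (κ⁻¹ * (κ * (ε₀ / 2) / (2 ^ k * B)))) = ε₀ / 2 := by
    field_simp
  have hfin2 : 2 ^ k * (B * (t * (max 1 t ^ k *
      ((ε₀ / 2) / (2 ^ k * (B * (t * max 1 t ^ k))))))) = ε₀ / 2 := by
    field_simp
  have hg'c : ∀ y, LR.sg g (ps t y) = LR.sg g' y := fun y => by rw [hg']; rfl
  have hc'c : ∀ y, sgm442 c (ps t y) = sgm442 c' y := fun y => by rw [hc']; rfl
  have hsc : ∀ i j, Cl k ε₀
      (fun y => chi442 y * (s (ps t y) i j - (1 : Matrix (Fin n) (Fin n) ℝ) i j)) := by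
    intro i j
    have hg1 : ContDiff ℝ ∞ (fun y => LR.sg g' y i j - sc (sgm442 c') y i j) :=
      ((H442.smM_sg442 hg's hg'p) i j).sub (smM_sc442 (sgm_smooth442 hc's hc'0) i j)
    have h1 : Cl k (κ⁻¹ * (κ * (ε₀ / 2) / (2 ^ k * B)))
        (fun y => κ⁻¹ • (LR.sg g' y i j - sc (sgm442 c') y i j)) :=
      cl_csmul (inv_pos.2 hκ0) hg1 (hsgcl i j)
    have h2 := cl_smul chi_smooth442 (hg1.const_smul κ⁻¹) hχ h1
    rw [hfin] at h2
    have h3 : Cl k (ε₀ / 2)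
        (fun y => chi442 y * (τ (ps t y) - 1) * (1 : Matrix (Fin n) (Fin n) ℝ) i j) := by
      by_cases hij : i = j
      · subst hij
        simpa using hb1
      · rw [Matrix.one_apply_ne hij]
        simp only [mul_zero]
        intro l hl x
        have h4 := iteratedFDeriv_zero_fun (𝕜 := ℝ) (E := V n) (F := ℝ) (n := l)
        have h5 : iteratedFDeriv ℝ l (fun _ : V n => (0 : ℝ)) x = 0 := congrFun h4 x
        rw [h5, norm_zero]
        exact (half_pos hε₀).le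
    have h4 := cl_add (chi_smooth442.smul (hg1.const_smul κ⁻¹))
      ((chi_smooth442.mul ((hτs.comp (contDiff_ps t)).sub contDiff_const)).mul contDiff_const)
      h2 h3
    rw [add_halves] at h4
    have h5 : (fun y => chi442 y * (s (ps t y) i j - (1 : Matrix (Fin n) (Fin n) ℝ) i j)) =
        fun y => chi442 y • (κ⁻¹ • (LR.sg g' y i j - sc (sgm442 c') y i j)) +
          chi442 y * (τ (ps t y) - 1) * (1 : Matrix (Fin n) (Fin n) ℝ) i j := by
      funext y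
      rw [hs, hτ]
      simp only
      rw [Matrix.smul_apply, hg'c, hc'c]
      unfold sc
      rw [Matrix.smul_apply]
      simp only [smul_eq_mul]
      ring
    rw [h5]
    exact h4
  have hA₁c : ∀ i, ClC k ε₀ (cA t α i) := fun i a b =>
    Vale.Agent.P088.LR.H72.cl_mono (hb2 i a b) (by linarith)
  have hA₂c : ∀ i, ClC k ε₀ (cA t A₂ i) := by
    intro i a b
    have hd : ContDiff ℝ ∞ (fun x => A₂ i x a b - α i x a b) :=
      (hA₂.1 i a b).sub (hα.1 i a b)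
    have h1 := cl_ps hd ht0 (Vale.Agent.P088.LR.H72.cl_mono (hA₂cl i a b) (min_le_right _ _))
    have hd' : ContDiff ℝ ∞ (fun y => A₂ i (ps t y) a b - α i (ps t y) a b) :=
      hd.comp (contDiff_ps t)
    have h2 := cl_smul chi_smooth442 (hd'.const_smul t) hχ (cl_csmul ht0 hd' h1)
    rw [hfin2] at h2
    have h3 := cl_add (chi_smooth442.smul (hd'.const_smul t)) ((smU_cA hα t).1 i a b) h2
      (hb2 i a b)
    rw [add_halves] at h3
    have h4 : (fun y => cA t A₂ i y a b) = fun y =>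
        chi442 y • (t • (A₂ i (ps t y) a b - α i (ps t y) a b)) + cA t α i y a b := by
      funext y
      show (((chi442 y : ℝ) : ℂ) • ((t : ℂ) • A₂ i (ps t y))) a b = _ +
        (((chi442 y : ℝ) : ℂ) • ((t : ℂ) • α i (ps t y))) a b
      simp only [Matrix.smul_apply, smul_eq_mul, Complex.real_smul]
      ring
    rw [h4]
    exact h3
  have hor' : OrU (bB n R) (sc τ) α s A₂ := by
    have h1 := orU_const (a := κ⁻¹) (inv_ne_zero hκ0.ne')
      (H442.smM_sg442 (smM_sc442 hc) (posDef_sc442 hc0)) hsgs hα hA₂ hor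
    have e1 : (fun x => κ⁻¹ • LR.sg (sc c) x) = sc τ := by
      funext x
      rw [hs1e, hτe]
    rw [e1, ← hs] at h1
    exact h1
  obtain ⟨w, K, U, hD, hone, hU⟩ := rigS hrig hR ht (bB n R) bB_open (bB_reg (by omega) hR)
    (fun x hx => bB_box hR x hx) τ s hτs hτp hss hsy hsoff
    (Vale.Agent.P088.LR.H72.cl_mono hb1 (by linarith)) hsc α A₂ hα hA₂ hAoff hA₁c hA₂c hor'
  refine ⟨w, K, U, hD, Vale.Agent.P088.H695.is2 hn (bB n R) c g hc0 hgp w K hD fun x => ?_, hU⟩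
  have h1 := hone x
  rw [hs, psh_const, hτe] at h1
  rw [hs1e]
  exact smul_right_injective _ (inv_ne_zero hκ0.ne') h1

end Vale.Agent.P088.H599.S
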