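import Vale.Agent.P088.H599.S.At

/-!
# P088: joint uniqueness near an arbitrary pair with conformally flat metric, bounded perturbations
with small support
-/

set_option linter.all false

open MeasureTheory Set
open scoped ContDiff Matrix

noncomputable section

namespace Vale.Agent.P088.H599.S

open Vale.Agent.P088.LR Vale.Agent.P088.LR.CF Vale.Agent.P088.LR.H925 Vale.Agent.P088.LR.H158
open Vale.Agent.P088.LR.U Vale.Agent.P088.H798
open Vale.Agent.P088.H207.J (bB bB_open bB_reg bB_box)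

variable {n N : ℕ}

theorem clB_le {F : Type*} [NormedAddCommGroup F] [NormedSpace ℝ F] {k k' : ℕ} {ε ε' : ℝ}
    {f : V n → F} (hk : k ≤ k') (hε : ε' ≤ ε) (h : Cl k' ε' f) : Cl k ε f :=
  fun l hl x => (h l (hl.trans hk) x).trans hε

theorem rigU_mono {k k' : ℕ} (hk : k ≤ k') {ε : ℝ} (h : RigU n N k ε) : RigU n N k' ε := by
  intro Ω hΩ hreg hb σ s hσ hσ0 hσ1 hs hsy hoff hσc hsc A₁ A₂ hA₁ hA₂ h0 hA hA₁c hA₂c hor
  exact h Ω hΩ hreg hb σ s hσ hσ0 hσ1 hs hsy hoff (clB_le hk le_rfl hσc)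
    (fun i j => clB_le hk le_rfl (hsc i j)) A₁ A₂ hA₁ hA₂ h0 hA
    (fun i a b => clB_le hk le_rfl (hA₁c i a b)) (fun i a b => clB_le hk le_rfl (hA₂c i a b)) hor

section

variable {F : Type*} [NormedAddCommGroup F] [NormedSpace ℝ F]

/-- A bounded gradient and small support. -/
theorem sup_small (hn : 0 < n) {f : V n → F} (hf : ContDiff ℝ ∞ f) {R B : ℝ} (hR : 0 < R)
    (hB : 0 ≤ B) (h0 : ∀ x ∉ bB n R, f x = 0) (h1 : ∀ x, ‖iteratedFDeriv ℝ 1 f x‖ ≤ B) (x : V n) :
    ‖f x‖ ≤ B * (2 * R) := by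
  by_cases hx : x ∈ bB n R
  · obtain ⟨y, hy⟩ : ∃ y : V n, y = x + fun _ => 2 * R := ⟨_, rfl⟩
    have hy0 : y ∉ bB n R := by
      intro h
      have h2 := bB_box hR x hx ⟨0, hn⟩
      have h3 : (y ⟨0, hn⟩) ^ 2 < R ^ 2 := lt_of_le_of_lt
        (Finset.single_le_sum (f := fun j => (y j) ^ 2) (fun _ _ => sq_nonneg _)
          (Finset.mem_univ _)) h
      rw [abs_le] at h2
      have h4 : y ⟨0, hn⟩ = x ⟨0, hn⟩ + 2 * R := by rw [hy]; rfl
      rw [h4] at h3
      nlinarith [h2.1, h2.2]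
    have h2 := Convex.norm_image_sub_le_of_norm_fderiv_le (𝕜 := ℝ) (f := f) (C := B)
      (s := univ) (x := y) (y := x) (fun z _ => (hf.differentiable (by simp)) z)
      (fun z _ => by rw [← norm_iteratedFDeriv_one (𝕜 := ℝ) (x := z) f]; exact h1 z)
      convex_univ (mem_univ _) (mem_univ _)
    rw [h0 y hy0, sub_zero] at h2
    refine h2.trans (mul_le_mul_of_nonneg_left ?_ hB)
    have h3 : x - y = fun _ => -(2 * R) := by
      rw [hy]
      funext j
      simp
    rw [h3]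
    refine (pi_norm_le_iff_of_nonneg (by positivity)).2 fun j => ?_
    rw [norm_neg, Real.norm_of_nonneg (by positivity)]
  · rw [h0 x hx, norm_zero]
    positivity

/-- The dilation of a bounded perturbation with small support is small. -/
theorem pert_small (hn : 0 < n) {f : V n → F} (hf : ContDiff ℝ ∞ f) {k : ℕ} (hk : 1 ≤ k)
    {R B t : ℝ} (hR : 0 < R) (hB : 0 ≤ B) (ht : t = 8 * (n + 1) * R) (ht1 : t ≤ 1)
    (h0 : ∀ x ∉ bB n R, f x = 0) (h1 : Cl k B f) : Cl k (t * B) (fun y => f (ps t y)) := by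
  have ht0 : 0 < t := by rw [ht]; positivity
  intro l hl y
  rcases Nat.eq_zero_or_pos l with rfl | hl0
  · rw [norm_iteratedFDeriv_zero]
    refine (sup_small hn hf hR hB h0 (fun x => h1 1 hk x) _).trans ?_
    rw [mul_comm t B]
    refine mul_le_mul_of_nonneg_left ?_ hB
    rw [ht]
    have h6 : (0 : ℝ) ≤ n := Nat.cast_nonneg n
    nlinarith [mul_nonneg hR.le h6]
  · have h2 : t ^ l ≤ t := pow_le_of_le_one ht0.le ht1 (by omega)
    exact (ifd_ps hf ht0 l y).trans (mul_le_mul h2 (h1 l hl _) (norm_nonneg _) ht0.le)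

end

/-- Joint uniqueness near `(c e, α)`: no smallness of `c`, `α`, and of the perturbation, small
support. -/
theorem locAtB (hn : 3 ≤ n) (hRig : ∃ (k : ℕ) (ε : ℝ), 0 < ε ∧ RigU n N k ε) :
    ∃ k : ℕ, ∀ c : V n → ℝ, ContDiff ℝ ∞ c → (∀ x, 0 < c x) → ∀ α : Cn n N, SmU α →
      ∀ B : ℝ, 0 < B → ∃ r₀ > 0, ∀ R : ℝ, 0 < R → R ≤ r₀ → LocAt n N k c α R B := by
  obtain ⟨k₀, ε₀, hε₀, hrig₀⟩ := hRig
  obtain ⟨k, hk⟩ : ∃ k, k = k₀ + 1 := ⟨_, rfl⟩
  have hrig : RigU n N k ε₀ := rigU_mono (by omega) hrig₀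
  have hk1 : 1 ≤ k := by omega
  refine ⟨k, fun c hc hc0 α hα B hB => ?_⟩
  obtain ⟨C, hC, hχ⟩ := chi_cl442 n k
  obtain ⟨κ, hκ⟩ : ∃ κ : ℝ, κ = c 0 := ⟨_, rfl⟩
  have hκ0 : 0 < κ := hκ ▸ hc0 0
  have hκi : 0 < κ⁻¹ := inv_pos.2 hκ0
  obtain ⟨τ, hτ⟩ : ∃ τ : V n → ℝ, τ = fun x => κ⁻¹ * c x := ⟨_, rfl⟩
  have hτs : ContDiff ℝ ∞ τ := by rw [hτ]; exact contDiff_const.mul hc
  have hτ0 : τ 0 = 1 := by
    rw [hτ]
    simp only
    rw [← hκ, inv_mul_cancel₀ hκ0.ne']
  have hτp : ∀ x, 0 < τ x := fun x => by rw [hτ]; exact mul_pos hκi (hc0 x)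
  -- norms
  have hε₁ : 0 < ε₀ / (2 ^ k * C) := by positivity
  have hfin0 : 2 ^ k * (C * (ε₀ / (2 ^ k * C))) = ε₀ := by field_simp
  obtain ⟨δ0, hδ0, hnorm0⟩ := Vale.Agent.P088.LR.H72.norm0 n k _ hε₁
  obtain ⟨δs, hδs, hsml⟩ := small_sgm442 n k hε₁
  obtain ⟨δ, hδe⟩ : ∃ δ, δ = min δ0 δs := ⟨_, rfl⟩
  have hδ : 0 < δ := by rw [hδe]; exact lt_min hδ0 hδs
  obtain ⟨t₀, ht₀, hsm⟩ := base_small (n := n) k hC hχ (lt_min (half_pos hδ) (half_pos hε₀))
    hτs hτ0 hα
  obtain ⟨t₁, ht₁⟩ : ∃ t₁, t₁ = (δ / 2) / (2 ^ k * (C * (κ⁻¹ * B))) := ⟨_, rfl⟩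
  obtain ⟨t₂, ht₂⟩ : ∃ t₂, t₂ = (ε₀ / 2) / (2 ^ k * (C * B)) := ⟨_, rfl⟩
  have ht₁0 : 0 < t₁ := by rw [ht₁]; positivity
  have ht₂0 : 0 < t₂ := by rw [ht₂]; positivity
  refine ⟨min (min t₀ 1) (min t₁ t₂) / (8 * (n + 1)), by positivity, fun R hR hRr => ?_⟩
  obtain ⟨t, ht⟩ : ∃ t : ℝ, t = 8 * (n + 1) * R := ⟨_, rfl⟩
  have ht0 : 0 < t := by rw [ht]; positivity
  have htt : t ≤ min (min t₀ 1) (min t₁ t₂) := by
    rw [ht]
    rw [le_div_iff₀ (by positivity)] at hRr
    linarith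
  have htt0 : t ≤ t₀ := htt.trans ((min_le_left _ _).trans (min_le_left _ _))
  have htt1 : t ≤ 1 := htt.trans ((min_le_left _ _).trans (min_le_right _ _))
  have htt2 : t ≤ t₁ := htt.trans ((min_le_right _ _).trans (min_le_left _ _))
  have htt3 : t ≤ t₂ := htt.trans ((min_le_right _ _).trans (min_le_right _ _))
  have hm1 : max 1 t ^ k = 1 := by rw [max_eq_left htt1, one_pow]
  obtain ⟨hb1, hb2⟩ := hsm t ht0 htt0
  intro g hg hgp hoff hgcl A₂ hA₂ hAoff hA₂cl hor
  have hnp : 0 < n := by omega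
  -- the cut-off metrics in dilated coordinates
  obtain ⟨cc, hcc⟩ : ∃ cc : V n → ℝ, cc = fun y => 1 + chi442 y * (τ (ps t y) - 1) := ⟨_, rfl⟩
  have hccs : ContDiff ℝ ∞ cc := by
    rw [hcc]
    exact contDiff_const.add (chi_smooth442.mul ((hτs.comp (contDiff_ps t)).sub contDiff_const))
  have hcc0 : ∀ y, 0 < cc y := by
    intro y
    have h1 := chi_nonneg442 y
    have h2 := chi_le_one442 y
    have h3 := hτp (ps t y)
    have h4 : cc y = (1 - chi442 y) + chi442 y * τ (ps t y) := by rw [hcc]; ring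
    rw [h4]
    rcases h2.lt_or_eq with h5 | h5
    · have := mul_nonneg h1 h3.le
      linarith
    · rw [h5]; linarith
  obtain ⟨gg, hgg⟩ : ∃ gg : MF n, gg = fun y =>
    (1 - chi442 y) • (1 : Matrix (Fin n) (Fin n) ℝ) + (chi442 y * κ⁻¹) • g (ps t y) := ⟨_, rfl⟩
  have hgge : ∀ y i j, gg y i j - (1 : Matrix (Fin n) (Fin n) ℝ) i j
      = chi442 y • (κ⁻¹ • (g (ps t y) i j - sc c (ps t y) i j)) +
        chi442 y * (τ (ps t y) - 1) * (1 : Matrix (Fin n) (Fin n) ℝ) i j := by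
    intro y i j
    rw [hgg, hτ]
    simp only
    unfold sc
    simp only [Matrix.add_apply, Matrix.smul_apply, smul_eq_mul]
    ring
  have hgd : ∀ i j, ContDiff ℝ ∞ (fun y => g (ps t y) i j - sc c (ps t y) i j) :=
    fun i j => ((hg i j).sub (smM_sc442 hc i j)).comp (contDiff_ps t)
  have hggs : SmM gg := by
    intro i j
    have h1 : (fun y => gg y i j) = fun y => (1 : Matrix (Fin n) (Fin n) ℝ) i j +
        (chi442 y • (κ⁻¹ • (g (ps t y) i j - sc c (ps t y) i j)) +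
        chi442 y * (τ (ps t y) - 1) * (1 : Matrix (Fin n) (Fin n) ℝ) i j) := by
      funext y
      rw [← hgge y i j]
      ring
    rw [h1]
    exact contDiff_const.add ((chi_smooth442.smul ((hgd i j).const_smul κ⁻¹)).add
      ((chi_smooth442.mul ((hτs.comp (contDiff_ps t)).sub contDiff_const)).mul contDiff_const))
  have hggp : ∀ y, (gg y).PosDef := by
    intro y
    have h1 := chi_nonneg442 y
    have h2 := chi_le_one442 y
    rw [hgg]
    simp only
    rcases h2.lt_or_eq with h5 | h5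
    · exact (Matrix.PosDef.one.smul (by linarith)).add_posSemidef
        ((hgp _).posSemidef.smul (mul_nonneg h1 hκi.le))
    · rw [h5, sub_self, zero_smul, zero_add, one_mul]
      exact (hgp _).smul hκi
  have hdil : ∀ x ∈ bB n R, ∑ j, (ph t x j - 1 / 2) ^ 2 ≤ 1 / 64 := by
    intro x hx
    have h1 : ∀ j, (ph t x j - 1 / 2) ^ 2 ≤ (1 / (8 * (n + 1))) ^ 2 := by
      intro j
      have h2 := bB_box hR x hx j
      have h3 : ph t x j - 1 / 2 = t⁻¹ * x j := by
        simp [ph]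
      have h4 : |t⁻¹ * x j| ≤ 1 / (8 * (n + 1)) := by
        rw [abs_mul, abs_of_pos (inv_pos.2 ht0), ht, inv_mul_le_iff₀ (by positivity)]
        have h5 : 8 * ((n : ℝ) + 1) * R * (1 / (8 * (n + 1))) = R := by field_simp
        rw [h5]
        exact h2
      rw [h3, ← sq_abs]
      exact pow_le_pow_left₀ (abs_nonneg _) h4 2
    calc ∑ j, (ph t x j - 1 / 2) ^ 2 ≤ ∑ _j : Fin n, (1 / (8 * ((n : ℝ) + 1))) ^ 2 :=
          Finset.sum_le_sum fun j _ => h1 j
      _ = n * (1 / (8 * ((n : ℝ) + 1))) ^ 2 := by simp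
      _ ≤ 1 / 64 := by
          have hn : (0 : ℝ) ≤ n := Nat.cast_nonneg n
          rw [div_pow, one_pow, mul_one_div, div_le_div_iff₀ (by positivity) (by norm_num)]
          nlinarith
  have hχ1 : ∀ x ∈ bB n R, chi442 (ph t x) = 1 := fun x hx => chi_one442 (hdil x hx)
  have hggoff : ∀ x ∉ bB n R, gg (ph t x) = sc cc (ph t x) := by
    intro x hx
    rw [hgg, hcc, hτ]
    simp only
    unfold sc
    rw [ps_ph ht0.ne', hoff x hx]
    unfold sc
    rw [smul_smul, ← add_smul]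
    congr 1
    simp only [ps_ph ht0.ne']
    ring
  -- smallness
  have hccc : Cl k δ (fun y => cc y - 1) := by
    have h1 : (fun y => cc y - 1) = fun y => chi442 y * (τ (ps t y) - 1) := by
      funext y
      rw [hcc]
      ring
    rw [h1]
    exact clB_le le_rfl ((min_le_left _ _).trans (half_le_self hδ.le)) hb1
  have hggc : ∀ i j, Cl k δ (fun y => gg y i j - (1 : Matrix (Fin n) (Fin n) ℝ) i j) := by
    intro i j
    have h0 : Cl k (t * B) (fun y => g (ps t y) i j - sc c (ps t y) i j) :=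
      pert_small (f := fun x => g x i j - sc c x i j) hnp ((hg i j).sub (smM_sc442 hc i j)) hk1
        hR hB.le ht htt1 (fun x hx => by rw [hoff x hx, sub_self]) (hgcl i j)
    have h1 : Cl k (κ⁻¹ * (t * B)) (fun y => κ⁻¹ • (g (ps t y) i j - sc c (ps t y) i j)) :=
      cl_csmul hκi (hgd i j) h0
    have h2 := cl_smul chi_smooth442 ((hgd i j).const_smul κ⁻¹) hχ h1
    have h2' : 2 ^ k * (C * (κ⁻¹ * (t * B))) ≤ δ / 2 := by
      rw [ht₁, le_div_iff₀ (by positivity)] at htt2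
      linarith
    have h3 : Cl k (δ / 2)
        (fun y => chi442 y * (τ (ps t y) - 1) * (1 : Matrix (Fin n) (Fin n) ℝ) i j) := by
      by_cases hij : i = j
      · subst hij
        simpa using clB_le le_rfl (min_le_left _ _) hb1
      · rw [Matrix.one_apply_ne hij]
        simp only [mul_zero]
        intro l hl x
        have h4 := iteratedFDeriv_zero_fun (𝕜 := ℝ) (E := V n) (F := ℝ) (n := l)
        have h5 : iteratedFDeriv ℝ l (fun _ : V n => (0 : ℝ)) x = 0 := congrFun h4 x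
        rw [h5, norm_zero]
        exact (half_pos hδ).le
    have h4 := cl_add (chi_smooth442.smul ((hgd i j).const_smul κ⁻¹))
      ((chi_smooth442.mul ((hτs.comp (contDiff_ps t)).sub contDiff_const)).mul contDiff_const)
      (clB_le le_rfl h2' h2) h3
    rw [add_halves] at h4
    have h5 : (fun y => gg y i j - (1 : Matrix (Fin n) (Fin n) ℝ) i j) =
        fun y => chi442 y • (κ⁻¹ • (g (ps t y) i j - sc c (ps t y) i j)) +
          chi442 y * (τ (ps t y) - 1) * (1 : Matrix (Fin n) (Fin n) ℝ) i j :=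
      funext fun y => hgge y i j
    rw [h5]
    exact h4
  have hσc := hsml cc hccs (clB_le le_rfl (by rw [hδe]; exact min_le_right _ _) hccc)
  have hsc := hnorm0 gg hggs fun i j =>
    clB_le le_rfl (by rw [hδe]; exact min_le_left _ _) (hggc i j)
  -- the tensors
  have hs1e : LR.sg (sc c) = sc (sgm442 c) := sg_sc442 hc0
  have hsgs : SmM (LR.sg g) := H442.smM_sg442 hg hgp
  obtain ⟨σ, hσ⟩ : ∃ σ : V n → ℝ, σ = fun x => sgm442 cc (ph t x) := ⟨_, rfl⟩
  obtain ⟨s, hs⟩ : ∃ s : MF n, s = fun x => LR.sg gg (ph t x) := ⟨_, rfl⟩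
  have hσs : ContDiff ℝ ∞ σ := by
    rw [hσ]; exact (sgm_smooth442 hccs hcc0).comp (contDiff_ph t)
  have hσp : ∀ x, 0 < σ x := fun x => by rw [hσ]; exact sgm_pos442 hcc0 _
  have hss : SmM s := fun i j => by
    have h1 : (fun x => s x i j) = fun x => LR.sg gg (ph t x) i j := by rw [hs]
    rw [h1]
    exact ((H442.smM_sg442 hggs hggp) i j).comp (contDiff_ph t)
  have hsy : ∀ x, (s x).IsSymm := fun x => by
    rw [hs]
    exact H442.symm_sg442 hggp _
  have hsoff : ∀ x ∉ bB n R, s x = sc σ x := by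
    intro x hx
    have h1 : LR.sg gg (ph t x) = sc (sgm442 cc) (ph t x) := by
      rw [← sg_sc442 hcc0]
      unfold LR.sg
      rw [hggoff x hx]
    rw [hs, hσ]
    exact h1
  obtain ⟨l₀, hl₀⟩ : ∃ l₀ : ℝ, l₀ = √(κ⁻¹ ^ n) * κ⁻¹⁻¹ := ⟨_, rfl⟩
  have hl₀0 : 0 < l₀ := by rw [hl₀]; positivity
  have hson : ∀ x ∈ bB n R, s x = l₀ • LR.sg g x := by
    intro x hx
    have h1 := Vale.Agent.P088.H607.sg_smul607 (c := fun _ => κ⁻¹) (fun _ => hκi) hgp x
    have h2 : gg (ph t x) = κ⁻¹ • g x := by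
      rw [hgg]
      simp only
      rw [hχ1 x hx, sub_self, zero_smul, zero_add, one_mul, ps_ph ht0.ne']
    have h3 : LR.sg gg (ph t x) = LR.sg (fun y => κ⁻¹ • g y) x := by
      unfold LR.sg
      rw [h2]
    rw [hs]
    simp only
    rw [h3, h1, hl₀]
    rfl
  have hσon : ∀ x ∈ bB n R, sc σ x = l₀ • LR.sg (sc c) x := by
    intro x hx
    have h1 := Vale.Agent.P088.H607.sg_smul607 (c := fun _ => κ⁻¹) (fun _ => hκi)
      (posDef_sc442 hc0) x
    have h2 : sc cc (ph t x) = κ⁻¹ • sc c x := by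
      rw [hcc, hτ]
      unfold sc
      simp only
      rw [hχ1 x hx, ps_ph ht0.ne', smul_smul]
      congr 1
      ring
    have h3 : sc (sgm442 cc) (ph t x) = LR.sg (fun y => κ⁻¹ • sc c y) x := by
      rw [← sg_sc442 hcc0]
      unfold LR.sg
      rw [h2]
    rw [hσ]
    show sc (sgm442 cc) (ph t x) = _
    rw [h3, h1, hl₀]
    rfl
  have hσc' : Cl k ε₀ (fun y => chi442 y * (σ (ps t y) - 1)) := by
    have h1 := cl_smul chi_smooth442 ((sgm_smooth442 hccs hcc0).sub contDiff_const) hχ hσc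
    rw [hfin0] at h1
    have h2 : (fun y => chi442 y * (σ (ps t y) - 1)) =
        fun y => chi442 y • (sgm442 cc y - 1) := by
      funext y
      rw [hσ]
      simp only
      rw [ph_ps ht0.ne', smul_eq_mul]
    rw [h2]
    exact h1
  have hsc' : ∀ i j, Cl k ε₀
      (fun y => chi442 y * (s (ps t y) i j - (1 : Matrix (Fin n) (Fin n) ℝ) i j)) := by
    intro i j
    have h1 := cl_smul chi_smooth442
      (((H442.smM_sg442 hggs hggp) i j).sub contDiff_const) hχ (hsc i j)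
    rw [hfin0] at h1
    have h2 : (fun y => chi442 y * (s (ps t y) i j - (1 : Matrix (Fin n) (Fin n) ℝ) i j)) =
        fun y => chi442 y • (LR.sg gg y i j - (1 : Matrix (Fin n) (Fin n) ℝ) i j) := by
      funext y
      rw [hs]
      simp only
      rw [ph_ps ht0.ne', smul_eq_mul]
    rw [h2]
    exact h1
  -- the connections
  have hA₁c : ∀ i, ClC k ε₀ (cA t α i) := fun i a b =>
    clB_le le_rfl ((min_le_right _ _).trans (half_le_self hε₀.le)) (hb2 i a b)
  have hA₂c : ∀ i, ClC k ε₀ (cA t A₂ i) := by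
    intro i a b
    have hd : ContDiff ℝ ∞ (fun x => A₂ i x a b - α i x a b) :=
      (hA₂.1 i a b).sub (hα.1 i a b)
    have h1 := cl_ps hd ht0 (hA₂cl i a b)
    rw [hm1, one_mul] at h1
    have hd' : ContDiff ℝ ∞ (fun y => A₂ i (ps t y) a b - α i (ps t y) a b) :=
      hd.comp (contDiff_ps t)
    have h2 := cl_smul chi_smooth442 (hd'.const_smul t) hχ (cl_csmul ht0 hd' h1)
    have h2' : 2 ^ k * (C * (t * B)) ≤ ε₀ / 2 := by
      rw [ht₂, le_div_iff₀ (by positivity)] at htt3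
      linarith
    have h3 := cl_add (chi_smooth442.smul (hd'.const_smul t)) ((smU_cA hα t).1 i a b)
      (clB_le le_rfl h2' h2) (clB_le le_rfl (min_le_right _ _) (hb2 i a b))
    rw [add_halves] at h3
    have h4 : (fun y => cA t A₂ i y a b) = fun y =>
        chi442 y • (t • (A₂ i (ps t y) a b - α i (ps t y) a b)) + cA t α i y a b := by
      funext y
      show (((chi442 y : ℝ) : ℂ) • ((t : ℂ) • A₂ i (ps t y))) a b = _ +
        (((chi442 y : ℝ) : ℂ) • ((t : ℂ) • α i (ps t y))) a b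
      simp only [Matrix.smul_apply, smul_eq_mul, Complex.real_smul]
      ring
    rw [h4]
    exact h3
  have hor' : OrU (bB n R) (sc σ) α s A₂ := by
    have h1 := orU_const (a := l₀) hl₀0.ne'
      (H442.smM_sg442 (smM_sc442 hc) (posDef_sc442 hc0)) hsgs hα hA₂ hor
    exact orU_congr bB_open (fun x hx => (hσon x hx).symm) (fun _ _ _ => rfl)
      (fun x hx => (hson x hx).symm) (fun _ _ _ => rfl) h1
  obtain ⟨w, K, U, hD, hone, hU⟩ := rigS hrig hR ht (bB n R) bB_open (bB_reg (by omega) hR)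
    (fun x hx => bB_box hR x hx) σ s hσs hσp hss hsy hsoff hσc' hsc' α A₂ hα hA₂ hAoff
    hA₁c hA₂c hor'
  refine ⟨w, K, U, hD, Vale.Agent.P088.H695.is2 hn (bB n R) c g hc0 hgp w K hD fun x => ?_, hU⟩
  by_cases hx : x ∈ bB n R
  · have hKx : K x ∈ bB n R := H158.K_mem hD hx
    have h1 := hone x
    rw [hσon x hx] at h1
    have h2 : psh s w K x = l₀ • psh (LR.sg g) w K x := by
      unfold psh
      rw [hson _ hKx, Matrix.mul_smul, Matrix.smul_mul, smul_comm]
    rw [h2] at h1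
    exact smul_right_injective _ hl₀0.ne' h1
  · have hKx : K x = x := H158.K_off hD hx
    unfold psh
    rw [hKx, H158.jm_off hD (bB_reg (by omega) hR) hx]
    simp only [Matrix.det_one, inv_one, one_smul, Matrix.transpose_one, Matrix.one_mul,
      Matrix.mul_one]
    unfold LR.sg
    rw [hoff x hx]

end Vale.Agent.P088.H599.S
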