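import Vale.Agent.P088.H599.S.Near
import Vale.Agent.P088.H599.S.AtB

/-!
# P088: joint uniqueness of the metric and the connection, bounded perturbations with small support
of an arbitrary pair whose metric is conformally flat near a point, final form
-/

set_option linter.all false

open Bundle Manifold MeasureTheory Set Filter Topology
open scoped ContDiff Matrix ENNReal

noncomputable section

namespace Vale.Agent.P088.H599.S

open Vale.Agent.P088 Vale.Agent.P088.B Vale.Agent.P088.EYM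
open Vale.Agent.P088.H207 (kball IsBall MatchA Close CloseA NearC NearA CloseTo cdel)
open Vale.Agent.P088.H207.L (LocUO locUO)

universe u

/-- Joint uniqueness near `(c δ, α)`: (I) in small balls, no smallness of `c`, `α` and of the
perturbation; (II) in balls of any size, if `c - 1`, `α` and the perturbation are small. -/
theorem joint_bd {n N : ℕ} [NeZero n] (hn : 3 ≤ n) (hN : 1 ≤ N) :
    ∃ k : ℕ, (∀ (c : B.V n → ℝ) (α : Fin n → B.V n → Matrix (Fin N) (Fin N) ℂ), SmPair c α →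
      ∀ B : ℝ, 0 < B → ∃ r₀ : ℝ, 0 < r₀ ∧ ∀ r : ℝ, 0 < r → r ≤ r₀ → Uniq.{u} n N k c α r B) ∧
    ∀ r : ℝ, 0 < r → ∃ ε : ℝ, 0 < ε ∧ ∀ (c : B.V n → ℝ)
      (α : Fin n → B.V n → Matrix (Fin N) (Fin N) ℂ), NearC k ε c → NearA k ε α →
      Uniq.{u} n N k c α r ε := by
  have hRig := Vale.Agent.P088.H207.L.rigU n N (by omega) hN
  obtain ⟨k₁, h1⟩ := locAtB hn hRig
  obtain ⟨k₂, h2⟩ := locUO hn hRig
  refine ⟨max k₁ k₂, fun c α hca B hB => ?_, fun r hr => ?_⟩
  · obtain ⟨r₀, hr₀, hL⟩ := h1 c hca.1.1 hca.1.2 α (smU_of hca) B hB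
    refine ⟨r₀, hr₀, fun r hr hrr => ?_⟩
    exact uniq_of hn hN hr hB hca (locAt_mono (le_max_left _ _) (hL r hr hrr))
  · obtain ⟨ε, hε, hL⟩ := h2 r hr
    refine ⟨ε / 2, half_pos hε, fun c α hc hα => ?_⟩
    have hca : SmPair c α := ⟨⟨hc.1, hc.2.1⟩, fun i => ⟨(hα i).1, (hα i).2.1⟩⟩
    have hcc : LR.Cl k₂ (ε / 2) (fun x => c x - 1) :=
      fun l hl y => hc.2.2 l (hl.trans (le_max_right _ _)) y
    have hαc : ∀ i, LR.U.ClC k₂ (ε / 2) (α i) :=
      fun i a b l hl y => (hα i).2.2 a b l (hl.trans (le_max_right _ _)) y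
    have h3 : LocAt n N (max k₁ k₂) c α r (ε / 2) := locAt_mono (le_max_right _ _)
      (locAt_near hε hL hc.1 hc.2.1 (smU_of hca) hcc hαc)
    exact uniq_of hn hN hr (half_pos hε) hca h3

end Vale.Agent.P088.H599.S

end
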