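import Vale.Agent.P088.H207.St5
import Vale.Agent.P088.H207.St6

/-!
# P088: a metric and a connection near a given pair in a ball, definitions
-/

open Set Manifold Vale.Agent.P088.B Vale.Agent.P088.B8 Vale.Agent.P088.H207
open scoped Matrix ContDiff

noncomputable section

namespace Vale.Agent.P088.H599.S

universe u

section

variable {n N : ℕ} [NeZero n] {M : Type u} {Z : At n M}

/-- `c > 0` is smooth on `ℝ^n`, and `∑ α_i dy_i` is a smooth unitary connection on `ℝ^n`. -/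
def SmPair (c : V n → ℝ) (α : Fin n → V n → Matrix (Fin N) (Fin N) ℂ) : Prop :=
  (ContDiff ℝ ∞ c ∧ ∀ y, 0 < c y) ∧
    ∀ i, (∀ a b, ContDiff ℝ ∞ fun y => α i y a b) ∧ ∀ y, (α i y)ᴴ = -α i y

/-- In the chart at `p`, on the ball of radius `R`: the derivatives of the entries of
`A_i - α_i(· - y(p))` of order at most `k` are at most `ε`. -/
def CloseToA (k : ℕ) (ε : ℝ) (α : Fin n → V n → Matrix (Fin N) (Fin N) ℂ) (Q : Pair Z N) (p : M)
    (R : ℝ) : Prop :=
  ∀ x ∈ oball Z p R, ∀ i a b, ∀ l ≤ k, ‖iteratedFDeriv ℝ l (fun y : V n =>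
    ach Z Q.A p i y a b - α i (y - Z.ch p p) a b) (Z.ch p x)‖ ≤ ε

end

/-- Uniqueness on every manifold, with data on every patch of the boundary, near the pairs which in
a coordinate ball of radius `r` are `(c δ, α)`. -/
def Uniq (n N : ℕ) [NeZero n] (k : ℕ) (c : V n → ℝ)
    (α : Fin n → V n → Matrix (Fin N) (Fin N) ℂ) (r ε : ℝ) : Prop :=
  ∀ (M : Type u) [TopologicalSpace M]
    [ChartedSpace (EuclideanHalfSpace n) M] [IsManifold (𝓡∂ n) ∞ M] [T2Space M] [CompactSpace M]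
    [ConnectedSpace M] (Z : At n M) (_ : Z = at_ n M) (Γ O₀ : Set M) (_ : IsOpen O₀)
    (_ : Γ = O₀ ∩ bd Z) (_ : Γ.Nonempty) (P P' Q Q' : Pair Z N) (_ : SameData Γ P Q)
    (_ : Related Γ P P') (_ : Q.g = Q'.g) (_ : GaugeEq Γ Q'.A Q.A Z) (p : M) (_ : IsBall Z p r)
    (_ : MatchA c α P' p r) (ρ : ℝ) (_ : 0 < ρ) (_ : ρ < r) (_ : PwLe (kball Z p ρ)ᶜ Γ P' Q)
    (_ : ∀ x ∉ kball Z p ρ, Q'.A x = P'.A x) (_ : CloseTo k ε (cdel c) Q p r)
    (_ : CloseToA k ε α Q' p r), Related Γ P Q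

end Vale.Agent.P088.H599.S

end
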