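import Vale.Agent.P088.H207.L6
import Vale.Agent.P088.H599.S.At
import Vale.Agent.P088.H599.S.St

/-!
# P088: joint local uniqueness near a given pair, in a ball of a manifold
-/

set_option linter.all false

open Bundle Manifold MeasureTheory Set Filter Topology
open scoped ContDiff Matrix ENNReal

noncomputable section

namespace Vale.Agent.P088.H599.S

open Vale.Agent.P088 Vale.Agent.P088.B Vale.Agent.P088.EYM Vale.Agent.P088.H207.L
open Vale.Agent.P088.H207 (gl oball kball IsBall MatchA CloseTo cdel isCB_of kball_at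
  oball_at ch_at gch_at compl_cb)
open Vale.Agent.P088.H207.J (bB tr tri tr_tri tri_tr tr_sq tr_bB tri_bB bB_open bB_reg bB_box tr_cd
  tri_cd tr_fd int_tr bB_eq mvD mv_off mv_met lc_w tch_on tch)

universe u

/-- Joint local uniqueness of the metric and the connection in a ball. -/
theorem joint_two {n N : ℕ} [NeZero n] (hn : 3 ≤ n) (hN : 1 ≤ N) {k : ℕ} {ε R : ℝ} (hR0 : 0 < R)
    (hε : 0 < ε) {c : B.V n → ℝ}
    {α : Fin n → B.V n → Matrix (Fin N) (Fin N) ℂ} (hca : SmPair c α)
    (hrig : LocAt n N k c α R ε) {M : Type u} [TopologicalSpace M]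
    [ChartedSpace (EuclideanHalfSpace n) M] [IsManifold (𝓡∂ n) ∞ M] [T2Space M] [CompactSpace M]
    [ConnectedSpace M] (Z : At n M) (hZ : Z = at_ n M) (Γ O₀ : Set M) (hO₀ : IsOpen O₀)
    (hΓ : Γ = O₀ ∩ bd Z) (hne : Γ.Nonempty) (P P' Q Q' : Pair Z N)
    (hd : Vale.Agent.P088.B.SameData Γ P Q) (hR : Related Γ P P') (hQg : Q.g = Q'.g)
    (hgeq : Vale.Agent.P088.B.GaugeEq Γ Q'.A Q.A Z) (p : M) (hp : IsBall Z p R)
    (hmat : MatchA c α P' p R) (ρ : ℝ) (hρ : 0 < ρ)
    (hρR : ρ < R) (hpw : B8.PwLe (kball Z p ρ)ᶜ Γ P' Q)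
    (hAoff : ∀ x ∉ kball Z p ρ, Q'.A x = P'.A x) (hcl : CloseTo k ε (cdel c) Q p R)
    (hclA : CloseToA k ε α Q' p R) : Related Γ P Q := by
  have hd' : Vale.Agent.P088.B.SameData Γ P' Q := Vale.Agent.P088.B.same_related Z hZ hO₀ hΓ hne hR hd
  subst hZ
  letI := borel M
  haveI : BorelSpace M := ⟨rfl⟩
  obtain ⟨hrel, hok, -, -⟩ := TM.fLoc n N M
  have hCB : IsCB n p R := isCB_of hp
  have hK : kball (at_ n M) p ρ = cb n p ρ := kball_at hCB hρ.le hρR.le
  have hV : oball (at_ n M) p R = (xc n p).symm '' Metric.ball (xc n p p) R := oball_at hCB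
  obtain ⟨hOo, hOp, hObd⟩ := compl_cb (M := M) (n := n) (by omega) hCB hρ hρR
  have hb : bd (at_ n M) = (𝓡∂ n).boundary M := bd_at
  set z : E n := xc n p p with hz
  have hbt : Metric.ball z R ⊆ tg n p :=
    Metric.ball_subset_closedBall.trans (hCB.2.trans inter_subset_left)
  have hpos : Metric.ball z R ⊆ {y | 0 < y 0} :=
    Metric.ball_subset_closedBall.trans (hCB.2.trans inter_subset_right)
  have hmem : ∀ y ∈ Metric.ball z R, (xc n p).symm y ∈ oball (at_ n M) p R := fun y hy => by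
    rw [hV]
    exact mem_image_of_mem _ hy
  have hchy : ∀ y ∈ Metric.ball z R, (at_ n M).ch p ((xc n p).symm y) = WithLp.ofLp y :=
    fun y hy => by rw [ch_at, (xc n p).right_inv (hbt hy)]
  -- the hole
  obtain ⟨U₀, hU1, hU2, hU3, hU4⟩ := id hgeq
  have hole : B8.Hole U₀ (kball (at_ n M) p ρ) (oball (at_ n M) p R) Γ P' Q := by
    refine ⟨?_, ?_, ?_, ?_, ?_, hpw, ⟨hU1, hU2, hU3, fun x hx j => ?_⟩⟩
    · rw [hK]
      exact isOpen_compl_iff.1 hOo
    · rw [hK, hb, eq_empty_iff_forall_notMem]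
      rintro x ⟨h1, h2⟩
      exact hObd x h2 h1
    · rw [hK]
      exact hOp
    · rw [hV]
      exact cRungeB_B_open TM.fLoc hCB
    · rw [hK, hV]
      exact image_mono (Metric.closedBall_subset_ball hρR)
    · rw [hU4 x j, hAoff x hx]
  obtain ⟨h1, -, -⟩ := B8.hole' hn hN (at_ n M) rfl Γ O₀ hO₀ hΓ hne P' Q hd' U₀ _ _ hole
  obtain ⟨W, hW, hW1, hW2⟩ := Vale.Agent.P088.B.toGauge hgeq
  have hS : EYM.SameD (B2.one P') (EYM.O.wA (B2.one Q) (B2.one Q').A) Γ :=
    (EYM.O.mg_closed n N M (EYM.O.wA (B2.one Q) (B2.one Q').A) (B2.one P') Γ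
      (B2.one Q).A W hW hW1 hW2).2.2 (Vale.Agent.P088.B.sameD_one hd')
  have hRB : EYM.RelBd n Γ := ⟨O₀, hO₀, by rw [hΓ, hb]⟩
  have hchp : (at_ n M).ch p p = WithLp.ofLp z := ch_at p p
  have hokQ : ((EYM.O.wA (B2.one Q) (B2.one Q').A).loc p).Ok (Metric.ball z R) :=
    CHarm_ok_mono (hok _ p) hbt
  -- centred coordinates
  have hsq : ρ ^ 2 < R ^ 2 := pow_lt_pow_left₀ hρR hρ.le two_ne_zero
  set y₀ : Fin n → ℝ := WithLp.ofLp z with hy₀
  have htr : ∀ x : E n, WithLp.ofLp x - y₀ = tr z x := fun x => rfl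
  have htri : ∀ y : Fin n → ℝ, WithLp.ofLp (tri z y) = y + y₀ := by
    intro y
    funext j
    show z j + y j = y j + z j
    ring
  have hnotin : ∀ y ∈ bB n R, ρ ^ 2 < ∑ i, (y i) ^ 2 →
      (xc n p).symm (tri z y) ∉ cb n p ρ := by
    intro y hy hy'
    have hx := (tri_bB z hR0 y).2 hy
    have hxρ : tri z y ∉ Metric.closedBall z ρ := by
      intro h
      rw [mem_closedBall_iff_norm] at h
      have e1 : ∑ i, (y i) ^ 2 = ‖tri z y - z‖ ^ 2 := by
        rw [← tr_sq, tr_tri]
      rw [e1] at hy'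
      exact absurd (pow_le_pow_left₀ (norm_nonneg _) h 2) (not_le.2 hy')
    rintro ⟨x', hx', he⟩
    have h6 : x' = tri z y := (xc n p).symm.injOn
      ((hCB.2 (Metric.closedBall_subset_closedBall hρR.le hx')).1) (hbt hx) he
    exact hxρ (h6 ▸ hx')
  -- the metrics
  have hgP : ∀ y ∈ Metric.ball z R, gl P' p y = LR.CF.sc c (tr z y) := by
    intro y hy
    have e1 := (hmat _ (hmem y hy)).1
    rw [hchy y hy, gch_at P' p (hbt hy), hchp] at e1
    exact e1
  set f : LR.MF n := fun y => gch (at_ n M) Q.g p (y + y₀) with hf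
  have hfgl : ∀ y ∈ bB n R, f y = gl Q p (tri z y) := by
    intro y hy
    have e1 := gch_at Q p (hbt ((tri_bB z hR0 y).2 hy))
    rw [htri] at e1
    exact e1
  have hf1 : ∀ y ∈ bB n R, ρ ^ 2 < ∑ i, (y i) ^ 2 → f y = LR.CF.sc c y := by
    intro y hy hy'
    have hx := (tri_bB z hR0 y).2 hy
    have h5 := hnotin y hy hy'
    have e1 : gl Q p (tri z y) = gl P' p (tri z y) := by
      ext i j
      show S.bil (Q.g _) _ _ = S.bil (P'.g _) _ _
      rw [h1 _ (by rw [hK]; exact h5)]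
    rw [hfgl y hy, e1, hgP _ hx, tr_tri]
  have hfs : ∀ i j, ContDiffOn ℝ ∞ (fun y => f y i j) (bB n R) := by
    intro i j
    have e2 : ContDiffOn ℝ ∞ (fun x : E n => gl Q p x i j) (Metric.ball z R) :=
      hokQ.g_smooth i j
    refine (e2.comp (tri_cd z).contDiffOn fun y hy => (tri_bB z hR0 y).2 hy).congr
      fun y hy => ?_
    rw [hfgl y hy]
    rfl
  have hcs : LR.SmM (LR.CF.sc c) := LR.CF.smM_sc442 hca.1.1
  set g : LR.MF n := Vale.Agent.P088.H207.J.K.glue R f (LR.CF.sc c) with hg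
  have hgs : LR.SmM g := Vale.Agent.P088.H207.J.K.glue_sm hsq hfs hcs hf1
  have hgp : ∀ y, (g y).PosDef := by
    intro y
    by_cases hy : y ∈ bB n R
    · rw [hg, Vale.Agent.P088.H207.J.K.glue_in hy, hfgl y hy]
      exact hokQ.g_pos _ ((tri_bB z hR0 y).2 hy)
    · rw [hg, Vale.Agent.P088.H207.J.K.glue_out hy]
      exact LR.CF.posDef_sc442 hca.1.2 y
  have hgQ : ∀ x ∈ Metric.ball z R, g (tr z x) = gl Q p x := by
    intro x hx
    have e1 := (tr_bB z hR0 x).2 hx
    rw [hg, Vale.Agent.P088.H207.J.K.glue_in e1, hfgl _ e1, tri_tr]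
  have hgPc : ∀ x ∈ Metric.ball z R, LR.CF.sc c (tr z x) = gl P' p x :=
    fun x hx => (hgP x hx).symm
  have hgcl : ∀ i j, LR.Cl k ε (fun x => g x i j - LR.CF.sc c x i j) := by
    intro i j
    refine Vale.Agent.P088.H207.J.K.glue_cl hsq hf1 hε.le i j fun y hy l hl => ?_
    have e0 := (tri_bB z hR0 y).2 hy
    have e2 := hcl _ (hmem _ e0) i j l hl
    rw [hchy _ e0, htri, hchp] at e2
    have e3 := iteratedFDeriv_comp_add_right (𝕜 := ℝ) (f := fun y : Fin n → ℝ =>
      gch (at_ n M) Q.g p y i j - cdel c (y - y₀) i j) l y₀ y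
    have e5 : (fun y => f y i j - LR.CF.sc c y i j) = fun y : Fin n → ℝ =>
        (fun y : Fin n → ℝ => gch (at_ n M) Q.g p y i j - cdel c (y - y₀) i j) (y + y₀) := by
      funext x
      simp only [add_sub_cancel_right]
      rfl
    rw [e5, e3]
    exact e2
  -- the connections
  have hαU : LR.SmU α := ⟨fun i a b => (hca.2 i).1 a b, fun i x => (hca.2 i).2 x⟩
  have hBP : ∀ x ∈ Metric.ball z R, ∀ i, ((B2.one P').loc p).B i x = S.toE (α i (tr z x)) := by
    intro x hx i
    have e1 := (hmat _ (hmem x hx)).2 i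
    rw [hchy x hx, hchp] at e1
    rw [ach_at P' p (hbt hx) i, e1]
    rfl
  have hBQ0 : ∀ x ∈ Metric.ball z R, ∀ i, ((B2.one Q').loc p).B i x =
      S.toE (ach (at_ n M) Q'.A p i (WithLp.ofLp x)) := fun x hx i => ach_at Q' p (hbt hx) i
  set φ : Fin n → (Fin n → ℝ) → Matrix (Fin N) (Fin N) ℂ := fun i y =>
    ach (at_ n M) Q'.A p i (y + y₀) with hφ
  have hφB : ∀ y ∈ bB n R, ∀ i, ((B2.one Q').loc p).B i (tri z y) = S.toE (φ i y) := by
    intro y hy i
    rw [hBQ0 _ ((tri_bB z hR0 y).2 hy) i, htri]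
  have hφ1 : ∀ i, ∀ y ∈ bB n R, ρ ^ 2 < ∑ i, (y i) ^ 2 → φ i y = α i y := by
    intro i y hy hy'
    have hx := (tri_bB z hR0 y).2 hy
    have h5 := hnotin y hy hy'
    apply S.toE_inj
    rw [← hφB y hy i]
    have e1 := hBP _ hx i
    rw [tr_tri] at e1
    rw [← e1]
    show S.formOf (Q'.A _) _ = S.formOf (P'.A _) _
    rw [hAoff _ (by rw [hK]; exact h5)]
  have hokQ' : ((B2.one Q').loc p).Ok (Metric.ball z R) := CHarm_ok_mono (hok _ p) hbt
  have hφs : ∀ i a b, ContDiffOn ℝ ∞ (fun y => φ i y a b) (bB n R) := by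
    intro i a b
    have e2 : ContDiffOn ℝ ∞ (fun x : E n => S.ent a b (((B2.one Q').loc p).B i x))
        (Metric.ball z R) := (S.ent a b).contDiff.comp_contDiffOn (hokQ'.B_smooth i)
    refine (e2.comp (tri_cd z).contDiffOn fun y hy => (tri_bB z hR0 y).2 hy).congr
      fun y hy => ?_
    show φ i y a b = S.ent a b (((B2.one Q').loc p).B i (tri z y))
    rw [hφB y hy i, S.ent_apply, S.ofE_toE]
  have hφk : ∀ i, ∀ y ∈ bB n R, (φ i y)ᴴ = -φ i y := by
    intro i y hy
    apply S.toE_inj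
    rw [S.toE_star, S.toE_neg, ← hφB y hy i]
    exact (B2.one Q').A.skew _ _
  set A₂ : LR.Cn n N := fun i => glu R (φ i) (α i) with hA₂
  have hA₂e : ∀ i a b, (fun y => A₂ i y a b) = glu R (fun y => φ i y a b)
      (fun y => α i y a b) := by
    intro i a b
    funext y
    by_cases hy : y ∈ bB n R
    · rw [glu_in hy, hA₂]
      simp only
      rw [glu_in hy]
    · rw [glu_out hy, hA₂]
      simp only
      rw [glu_out hy]
  have hA₂U : LR.SmU A₂ := by
    refine ⟨fun i a b => ?_, fun i y => ?_⟩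
    · rw [hA₂e i a b]
      exact glu_sm hsq (hφs i a b) ((hca.2 i).1 a b) fun y hy hy' => by rw [hφ1 i y hy hy']
    · by_cases hy : y ∈ bB n R
      · rw [hA₂]
        simp only
        rw [glu_in hy, hφk i y hy]
      · rw [hA₂]
        simp only
        rw [glu_out hy, (hca.2 i).2 y]
  have hA₂c : ∀ i a b, LR.Cl k ε (fun x => A₂ i x a b - α i x a b) := by
    intro i a b
    have e6 : (fun y => A₂ i y a b - α i y a b) = glu R (fun y => φ i y a b - α i y a b)
        (fun y => (0 : ℂ)) := by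
      funext y
      by_cases hy : y ∈ bB n R
      · rw [glu_in hy, hA₂]
        simp only
        rw [glu_in hy]
      · rw [glu_out hy, hA₂]
        simp only
        rw [glu_out hy, sub_self]
    rw [e6]
    refine glu_cl hsq (fun y hy hy' => by rw [hφ1 i y hy hy', sub_self])
      (fun y hy l hl => ?_) (fun l hl x => ?_)
    · have e0 := (tri_bB z hR0 y).2 hy
      have e2 := hclA _ (hmem _ e0) i a b l hl
      rw [hchy _ e0, htri, hchp] at e2
      have e3 := iteratedFDeriv_comp_add_right (𝕜 := ℝ) (f := fun y : Fin n → ℝ =>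
        ach (at_ n M) Q'.A p i y a b - α i (y - y₀) a b) l y₀ y
      have e5 : (fun y => φ i y a b - α i y a b) = fun y : Fin n → ℝ =>
          (fun y : Fin n → ℝ => ach (at_ n M) Q'.A p i y a b - α i (y - y₀) a b) (y + y₀) := by
        funext x
        simp only [add_sub_cancel_right]
        rfl
      rw [e5, e3]
      exact e2
    · have h4 := iteratedFDeriv_zero_fun (𝕜 := ℝ) (E := Fin n → ℝ) (F := ℂ) (n := l)
      have h5 : iteratedFDeriv ℝ l (fun _ : Fin n → ℝ => (0 : ℂ)) x = 0 := congrFun h4 x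
      rw [h5, norm_zero]
      exact hε.le
  have hBQ : ∀ x ∈ Metric.ball z R, ∀ i, ((B2.one Q').loc p).B i x =
      S.toE (A₂ i (tr z x)) := by
    intro x hx i
    have hx' := (tr_bB z hR0 x).2 hx
    have e1 := hφB _ hx' i
    rw [tri_tr] at e1
    rw [e1, hA₂]
    simp only
    rw [glu_in hx']
  have hor : LR.U.OrU (bB n R) (LR.sg (LR.CF.sc c)) α (LR.sg g) A₂ :=
    orU_one (by omega) (P := B2.one P') (Q := EYM.O.wA (B2.one Q) (B2.one Q').A) hRB hne hS hCB
      hρ hρR (fun m hm X => by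
        show S.formOf (P'.A m) X = S.formOf (Q'.A m) X
        rw [hAoff m (by rw [hK]; exact hm)])
      (fun x hx v w => by
        show S.bil (Q.g x) v w = S.bil (P'.g x) v w
        rw [h1 x (by rw [hK]; exact hx)]) hcs hgs
      (LR.CF.posDef_sc442 hca.1.2) hgp hgPc hgQ hαU hA₂U hBP (fun x hx i => hBQ x hx i)
  obtain ⟨w, K, U, D, hwK, hUs, hUu, hU1', hUg⟩ := hrig g hgs hgp
    (fun y hy => Vale.Agent.P088.H207.J.K.glue_out hy) hgcl A₂ hA₂U (fun i y hy => glu_out hy) hA₂c hor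
  -- the conclusion
  have hfin : Related Γ P Q' := by
    refine related_comp2 hR (Vale.Agent.P088.H207.J.mvD hCB D) (fun x hx => ?_) (gU_uni hCB hUs hU1' hUu)
      (fun x hx => ?_) ?_ ?_
    · refine Vale.Agent.P088.H207.J.mv_off hCB (Vale.Agent.P088.H207.J.lc_w D) fun hx' => ?_
      rw [hΓ, hb] at hx
      have h3 : x ∈ Mi n M := cRungeB_cb_mi TM.fLoc hCB
        (image_mono Metric.ball_subset_closedBall hx')
      have h4 := hx.2
      rw [← ModelWithCorners.compl_interior] at h4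
      exact h4 h3
    · refine gU_off hCB hU1' fun hx' => ?_
      rw [hΓ, hb] at hx
      have h3 : x ∈ Mi n M := cRungeB_cb_mi TM.fLoc hCB
        (image_mono Metric.ball_subset_closedBall hx')
      have h4 := hx.2
      rw [← ModelWithCorners.compl_interior] at h4
      exact h4 h3
    · intro m v v'
      refine Vale.Agent.P088.H207.J.mv_met (P := B2.one P') (Q := B2.one Q') hCB D (fun m hm => ?_) ?_ m v v'
      · show S.bil (Q'.g m) = S.bil (P'.g m)
        rw [← hQg, h1 m (by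
          rw [hK]
          exact fun h => hm (image_mono (Metric.closedBall_subset_ball hρR) h))]
      · intro y hy
        have e1 := Vale.Agent.P088.H207.J.tch_on hR0 (Vale.Agent.P088.H207.J.lc_w D) (z := z) hy
        have e2 : tr z (Vale.Agent.P088.H207.J.tch z (fun y => y + w y) y) = tr z y + w (tr z y) := by
          unfold Vale.Agent.P088.H207.J.tch
          rw [tr_tri]
        have e3 : ((B2.one Q').loc p).g y = gl Q p y := by
          show gl Q' p y = gl Q p y
          have e4 := gch_at Q' p (hbt hy)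
          have e5 := gch_at Q p (hbt hy)
          rw [hQg] at e5
          exact e4.symm.trans e5
        have e5 : ((B2.one P').loc p).g (Vale.Agent.P088.H207.J.tch z (fun y => y + w y) y) =
          gl P' p (Vale.Agent.P088.H207.J.tch z (fun y => y + w y) y) := rfl
        rw [e3, e5, ← hgQ y hy, hwK, ← hgPc _ e1, e2]
        unfold LR.CF.sc
        rw [Matrix.mul_smul, Matrix.mul_one, Matrix.smul_mul]
    · intro m v
      refine mv_con2 (P := B2.one P') (Q := B2.one Q') hCB D hUs hU1' hBP hBQ (fun m hm => ?_)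
        hUg m v
      show S.formOf (Q'.A m) = S.formOf (P'.A m)
      rw [hAoff m (by
          rw [hK]
          exact fun h => hm (image_mono (Metric.closedBall_subset_ball hρR) h))]
  exact related_gauge hfin hgeq hQg

end Vale.Agent.P088.H599.S

end
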