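import Vale.Agent.P088.H599.S.Mfd
import Vale.Agent.P088.H207.L8

/-!
# P088: joint local uniqueness of the metric and the connection near an arbitrary pair whose metric
is conformally flat near a point, final form
-/

set_option linter.all false

open Bundle Manifold MeasureTheory Set Filter Topology
open scoped ContDiff Matrix ENNReal

noncomputable section

namespace Vale.Agent.P088.H599.S

open Vale.Agent.P088 Vale.Agent.P088.B Vale.Agent.P088.EYM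
open Vale.Agent.P088.H207 (kball IsBall MatchA Close CloseA NearC NearA CloseTo cdel)
open Vale.Agent.P088.H207.L (LocUO locUO)

universe u

theorem smU_of {n N : ℕ} {c : B.V n → ℝ} {α : Fin n → B.V n → Matrix (Fin N) (Fin N) ℂ}
    (h : SmPair c α) : LR.SmU α :=
  ⟨fun i a b => (h.2 i).1 a b, fun i x => (h.2 i).2 x⟩

theorem cl_le {n : ℕ} {F : Type*} [NormedAddCommGroup F] [NormedSpace ℝ F] {k k' : ℕ} {ε ε' : ℝ}
    {f : LR.V n → F} (hk : k ≤ k') (hε : ε' ≤ ε) (h : LR.Cl k' ε' f) : LR.Cl k ε f :=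
  fun l hl x => (h l (hl.trans hk) x).trans hε

theorem locAt_mono {n N k k' : ℕ} (hk : k ≤ k') {c : LR.V n → ℝ} {α : LR.Cn n N} {R ε : ℝ}
    (h : LocAt n N k c α R ε) : LocAt n N k' c α R ε :=
  fun g hg hgp hoff hcl A₂ hA₂ hA hAcl hor => h g hg hgp hoff
    (fun i j => cl_le hk le_rfl (hcl i j)) A₂ hA₂ hA (fun i a b => cl_le hk le_rfl (hAcl i a b)) hor

/-- Near the trivial pair. -/
theorem locAt_near {n N k : ℕ} {R ε : ℝ} (hε : 0 < ε) (h : LocUO n N k R ε)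
    {c : LR.V n → ℝ} {α : LR.Cn n N} (hc : ContDiff ℝ ∞ c) (hc0 : ∀ x, 0 < c x) (hα : LR.SmU α)
    (hcc : LR.Cl k (ε / 2) (fun x => c x - 1)) (hαc : ∀ i, LR.U.ClC k (ε / 2) (α i)) :
    LocAt n N k c α R (ε / 2) := by
  intro g hg hgp hoff hcl A₂ hA₂ hA hAcl hor
  refine h c g hc hc0 hg hgp hoff (cl_le le_rfl (half_le_self hε.le) hcc) (fun i j => ?_) α A₂ hα
    hA₂ hA (fun i a b => cl_le le_rfl (half_le_self hε.le) (hαc i a b)) (fun i a b => ?_) hor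
  · have h1 := cl_add ((hg i j).sub (LR.CF.smM_sc442 hc i j))
      ((LR.CF.smM_sc442 hc i j).sub contDiff_const) (hcl i j)
      (LR.CF.cl_sc442 (half_pos hε).le hcc i j)
    rw [add_halves] at h1
    have h2 : (fun x => g x i j - (1 : Matrix (Fin n) (Fin n) ℝ) i j) = fun x =>
        (g x i j - LR.CF.sc c x i j) +
          (LR.CF.sc c x i j - (1 : Matrix (Fin n) (Fin n) ℝ) i j) := by
      funext x
      ring
    rw [h2]
    exact h1
  · have h1 := cl_add ((hA₂.1 i a b).sub (hα.1 i a b)) (hα.1 i a b) (hAcl i a b) (hαc i a b)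
    rw [add_halves] at h1
    have h2 : (fun x => A₂ i x a b) = fun x => (A₂ i x a b - α i x a b) + α i x a b := by
      funext x
      ring
    show LR.Cl k ε (fun x => A₂ i x a b)
    rw [h2]
    exact h1

/-- From the ball to the manifolds. -/
theorem uniq_of {n N : ℕ} [NeZero n] (hn : 3 ≤ n) (hN : 1 ≤ N) {k : ℕ} {r ε : ℝ} (hr : 0 < r)
    (hε : 0 < ε) {c : B.V n → ℝ} {α : Fin n → B.V n → Matrix (Fin N) (Fin N) ℂ}
    (hca : SmPair c α) (h : LocAt n N k c α r ε) : Uniq.{u} n N k c α r ε := by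
  intro M _ _ _ _ _ _ Z hZ Γ O₀ hO₀ hΓ hne P P' Q Q' hd hR' hg hgeq p hp hm ρ hρ hρR hpw
    hA hcl hclA
  exact joint_two hn hN hr hε hca h Z hZ Γ O₀ hO₀ hΓ hne P P' Q Q' hd hR' hg hgeq p hp hm ρ
    hρ hρR hpw hA hcl hclA

/-- Joint local uniqueness near `(c δ, α)`: (I) in small balls, no smallness of `c` and `α`;
(II) in balls of any size, if `c - 1` and `α` are small. -/
theorem joint_near {n N : ℕ} [NeZero n] (hn : 3 ≤ n) (hN : 1 ≤ N) :
    ∃ k : ℕ, (∀ (c : B.V n → ℝ) (α : Fin n → B.V n → Matrix (Fin N) (Fin N) ℂ), SmPair c α →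
      ∃ r₀ : ℝ, 0 < r₀ ∧ ∀ r : ℝ, 0 < r → r ≤ r₀ → ∃ ε : ℝ, 0 < ε ∧ Uniq.{u} n N k c α r ε) ∧
    ∀ r : ℝ, 0 < r → ∃ ε : ℝ, 0 < ε ∧ ∀ (c : B.V n → ℝ)
      (α : Fin n → B.V n → Matrix (Fin N) (Fin N) ℂ), NearC k ε c → NearA k ε α →
      Uniq.{u} n N k c α r ε := by
  have hRig := Vale.Agent.P088.H207.L.rigU n N (by omega) hN
  obtain ⟨k₁, h1⟩ := locAt hn hRig
  obtain ⟨k₂, h2⟩ := locUO hn hRig
  refine ⟨max k₁ k₂, fun c α hca => ?_, fun r hr => ?_⟩
  · obtain ⟨r₀, hr₀, hL⟩ := h1 c hca.1.1 hca.1.2 α (smU_of hca)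
    refine ⟨r₀, hr₀, fun r hr hrr => ?_⟩
    obtain ⟨ε, hε, hL⟩ := hL r hr hrr
    exact ⟨ε, hε, uniq_of hn hN hr hε hca (locAt_mono (le_max_left _ _) hL)⟩
  · obtain ⟨ε, hε, hL⟩ := h2 r hr
    refine ⟨ε / 2, half_pos hε, fun c α hc hα => ?_⟩
    have hca : SmPair c α := ⟨⟨hc.1, hc.2.1⟩, fun i => ⟨(hα i).1, (hα i).2.1⟩⟩
    have hcc : LR.Cl k₂ (ε / 2) (fun x => c x - 1) :=
      fun l hl y => hc.2.2 l (hl.trans (le_max_right _ _)) y
    have hαc : ∀ i, LR.U.ClC k₂ (ε / 2) (α i) :=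
      fun i a b l hl y => (hα i).2.2 a b l (hl.trans (le_max_right _ _)) y
    have h3 : LocAt n N (max k₁ k₂) c α r (ε / 2) := locAt_mono (le_max_right _ _)
      (locAt_near hε hL hc.1 hc.2.1 (smU_of hca) hcc hαc)
    exact uniq_of hn hN hr (half_pos hε) hca h3

end Vale.Agent.P088.H599.S

end
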