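import Vale.Agent.P088.H599.S.Rig

/-!
# P088: the dilated base pair is small
-/

set_option linter.all false

open MeasureTheory Set
open scoped ContDiff Matrix

noncomputable section

namespace Vale.Agent.P088.H599.S

open Vale.Agent.P088.LR Vale.Agent.P088.LR.CF Vale.Agent.P088.LR.H925 Vale.Agent.P088.LR.H158
open Vale.Agent.P088.LR.U Vale.Agent.P088.H798

variable {n N : ℕ}

section

variable {F : Type*} [NormedAddCommGroup F] [NormedSpace ℝ F]

theorem ifd_ps {f : V n → F} (hf : ContDiff ℝ ∞ f) {t : ℝ} (ht : 0 < t) (l : ℕ) (x : V n) :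
    ‖iteratedFDeriv ℝ l (fun y => f (ps t y)) x‖ ≤ t ^ l * ‖iteratedFDeriv ℝ l f (ps t x)‖ := by
  have h1 : iteratedFDeriv ℝ l (fun y => f (ps t y)) x =
      iteratedFDeriv ℝ l (fun z => f (t • z)) (x - fun _ => (1 / 2 : ℝ)) := by
    have := iteratedFDeriv_comp_sub' (𝕜 := ℝ) (f := fun z => f (t • z)) l (fun _ => (1 / 2 : ℝ))
    exact congrFun this x
  have h2 : iteratedFDeriv ℝ l (fun z => f (t • z)) (x - fun _ => (1 / 2 : ℝ)) =
      (iteratedFDeriv ℝ l f (ps t x)).compContinuousLinearMap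
        fun _ => t • ContinuousLinearMap.id ℝ (V n) := by
    have := ContinuousLinearMap.iteratedFDeriv_comp_right (t • ContinuousLinearMap.id ℝ (V n))
      (f := f) (n := ∞) hf (x - fun _ => (1 / 2 : ℝ)) (i := l) (by exact_mod_cast le_top)
    exact this
  rw [h1, h2]
  refine (ContinuousMultilinearMap.norm_compContinuousLinearMap_le _ _).trans ?_
  have h3 : ‖t • ContinuousLinearMap.id ℝ (V n)‖ ≤ t := by
    rw [norm_smul, Real.norm_of_nonneg ht.le]
    calc t * ‖ContinuousLinearMap.id ℝ (V n)‖ ≤ t * 1 := by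
          gcongr; exact ContinuousLinearMap.norm_id_le
      _ = _ := mul_one _
  rw [Finset.prod_const, Finset.card_univ, Fintype.card_fin, mul_comm]
  gcongr

theorem core_ps {t : ℝ} (ht : 0 < t) {y : V n} (hy : y ∈ core n) : ‖ps t y‖ ≤ t := by
  have h1 : ‖y - fun _ => (1 / 2 : ℝ)‖ ≤ 1 := by
    refine (pi_norm_le_iff_of_nonneg zero_le_one).2 fun j => ?_
    have := hy j
    rw [Real.norm_eq_abs, abs_le]
    simp only [Pi.sub_apply]
    constructor <;> linarith
  unfold ps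
  rw [norm_smul, Real.norm_of_nonneg ht.le]
  calc t * ‖y - fun _ => (1 / 2 : ℝ)‖ ≤ t * 1 := by gcongr
    _ = t := mul_one _

/-- A bound of the derivatives on the unit ball. -/
theorem bd_ball {f : V n → F} (hf : ContDiff ℝ ∞ f) (k : ℕ) :
    ∃ C > 0, ∀ x, ‖x‖ ≤ 1 → ∀ l ≤ k, ‖iteratedFDeriv ℝ l f x‖ ≤ C := by
  have h : ∀ l : ℕ, ∃ C, ∀ x : V n, ‖x‖ ≤ 1 → ‖iteratedFDeriv ℝ l f x‖ ≤ C := by
    intro l
    obtain ⟨C, hC⟩ := (isCompact_closedBall (0 : V n) 1).exists_bound_of_continuousOn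
      (f := fun x => iteratedFDeriv ℝ l f x)
      (hf.continuous_iteratedFDeriv (by exact_mod_cast le_top)).continuousOn
    exact ⟨C, fun x hx => hC x (by simpa using hx)⟩
  choose C hC using h
  refine ⟨1 + ∑ l ∈ Finset.range (k + 1), |C l|, by positivity, fun x hx l hl => ?_⟩
  calc ‖iteratedFDeriv ℝ l f x‖ ≤ C l := hC l x hx
    _ ≤ |C l| := le_abs_self _
    _ ≤ ∑ l ∈ Finset.range (k + 1), |C l| :=
      Finset.single_le_sum (f := fun l => |C l|) (fun i _ => abs_nonneg _)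
        (Finset.mem_range.mpr (by omega))
    _ ≤ _ := by linarith

theorem small_ps {f : V n → F} (hf : ContDiff ℝ ∞ f) (h0 : f 0 = 0) (k : ℕ) {δ : ℝ}
    (hδ : 0 < δ) : ∃ t₀ > 0, ∀ t, 0 < t → t ≤ t₀ → ∀ y ∈ core n, ∀ l ≤ k,
      ‖iteratedFDeriv ℝ l (fun y => f (ps t y)) y‖ ≤ δ := by
  obtain ⟨C, hC, hb⟩ := bd_ball hf k
  obtain ⟨η, hη, hc⟩ := Metric.continuous_iff.1 hf.continuous 0 δ hδ
  refine ⟨min (min 1 (δ / C)) (η / 2), by positivity, fun t ht0 ht y hy l hl => ?_⟩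
  have ht1 : t ≤ 1 := ht.trans ((min_le_left _ _).trans (min_le_left _ _))
  have ht2 : t ≤ δ / C := ht.trans ((min_le_left _ _).trans (min_le_right _ _))
  have ht3 : t ≤ η / 2 := ht.trans (min_le_right _ _)
  have hp := core_ps ht0 hy
  refine (ifd_ps hf ht0 l y).trans ?_
  rcases Nat.eq_zero_or_pos l with rfl | hl0
  · rw [pow_zero, one_mul, norm_iteratedFDeriv_zero]
    have h1 := hc (ps t y) (by rw [dist_zero_right]; linarith)
    rw [h0, dist_zero_right] at h1
    exact h1.le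
  · have h1 : t ^ l ≤ t := pow_le_of_le_one ht0.le ht1 (by omega)
    calc t ^ l * ‖iteratedFDeriv ℝ l f (ps t y)‖ ≤ t * C :=
          mul_le_mul h1 (hb _ (hp.trans ht1) l hl) (norm_nonneg _) ht0.le
      _ ≤ δ / C * C := by gcongr
      _ = δ := div_mul_cancel₀ _ hC.ne'

theorem small_ps' {f : V n → F} (hf : ContDiff ℝ ∞ f) (k : ℕ) {δ : ℝ}
    (hδ : 0 < δ) : ∃ t₀ > 0, ∀ t, 0 < t → t ≤ t₀ → ∀ y ∈ core n, ∀ l ≤ k,
      ‖iteratedFDeriv ℝ l (fun y => t • f (ps t y)) y‖ ≤ δ := by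
  obtain ⟨C, hC, hb⟩ := bd_ball hf k
  refine ⟨min 1 (δ / C), by positivity, fun t ht0 ht y hy l hl => ?_⟩
  have ht1 : t ≤ 1 := ht.trans (min_le_left _ _)
  have ht2 : t ≤ δ / C := ht.trans (min_le_right _ _)
  have hp := core_ps ht0 hy
  have h1 : iteratedFDeriv ℝ l (fun x => t • f (ps t x)) y =
      t • iteratedFDeriv ℝ l (fun x => f (ps t x)) y :=
    iteratedFDeriv_const_smul_apply'
      ((hf.comp (contDiff_ps t)).of_le (by exact_mod_cast le_top)).contDiffAt
  rw [h1, norm_smul, Real.norm_of_nonneg ht0.le]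
  have h2 := ifd_ps hf ht0 l y
  have h3 : t ^ l ≤ 1 := pow_le_one₀ ht0.le ht1
  calc t * ‖iteratedFDeriv ℝ l (fun x => f (ps t x)) y‖
      ≤ t * (t ^ l * ‖iteratedFDeriv ℝ l f (ps t y)‖) := by gcongr
    _ ≤ t * (1 * C) := by
        gcongr
        exact hb _ (hp.trans ht1) l hl
    _ ≤ δ / C * (1 * C) := by gcongr
    _ = δ := by rw [one_mul, div_mul_cancel₀ _ hC.ne']

theorem isClosed_core : IsClosed (core n) := by
  have h1 : core n = ⋂ j, {x : V n | 1 / 4 ≤ x j ∧ x j ≤ 3 / 4} := by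
    ext x
    simp [core]
  rw [h1]
  exact isClosed_iInter fun j => (isClosed_le continuous_const (continuous_apply j)).inter
    (isClosed_le (continuous_apply j) continuous_const)

theorem chi_ifd {y : V n} (hy : y ∉ core n) (l : ℕ) :
    iteratedFDeriv ℝ l (chi442 : V n → ℝ) y = 0 := by
  have h1 : (chi442 : V n → ℝ) =ᶠ[nhds y] fun _ => 0 := by
    filter_upwards [isClosed_core.isOpen_compl.mem_nhds hy] with x hx
    exact chi_zero442 fun h => hx (bal_subset_core442 h)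
  rw [(h1.iteratedFDeriv ℝ l).self_of_nhds]
  have h2 := iteratedFDeriv_zero_fun (𝕜 := ℝ) (E := V n) (F := ℝ) (n := l)
  exact congrFun h2 y

theorem cl_chi {k : ℕ} {a b : ℝ} (ha : 0 ≤ a) (hb : 0 ≤ b) {g : V n → F}
    (hχ : Cl k a (chi442 : V n → ℝ)) (hg : ContDiff ℝ ∞ g)
    (h : ∀ y ∈ core n, ∀ l ≤ k, ‖iteratedFDeriv ℝ l g y‖ ≤ b) :
    Cl k (2 ^ k * (a * b)) (fun y => chi442 y • g y) := by
  intro l hl x
  refine (norm_iteratedFDeriv_smul_le (chi_smooth442.of_le (by exact_mod_cast le_top) :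
    ContDiff ℝ l chi442) (hg.of_le (by exact_mod_cast le_top)) x le_rfl).trans ?_
  by_cases hx : x ∈ core n
  · have h2 : ∑ i ∈ Finset.range (l + 1), (l.choose i : ℝ) * ‖iteratedFDeriv ℝ i chi442 x‖
        * ‖iteratedFDeriv ℝ (l - i) g x‖
      ≤ ∑ i ∈ Finset.range (l + 1), (l.choose i : ℝ) * (a * b) := by
      refine Finset.sum_le_sum fun i hi => ?_
      rw [Finset.mem_range] at hi
      have h3 := hχ i (by omega) x
      have h4 := h x hx (l - i) (by omega)
      rw [mul_assoc]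
      gcongr
    have h5 : ∑ i ∈ Finset.range (l + 1), (l.choose i : ℝ) * (a * b) = 2 ^ l * (a * b) := by
      rw [← Finset.sum_mul]
      congr 1
      exact_mod_cast Nat.sum_range_choose l
    have h6 : (2 : ℝ) ^ l ≤ 2 ^ k := pow_le_pow_right₀ (by norm_num) hl
    have h7 : (2 : ℝ) ^ l * (a * b) ≤ 2 ^ k * (a * b) := by gcongr
    exact h2.trans (h5.le.trans h7)
  · have h1 : ∑ i ∈ Finset.range (l + 1), (l.choose i : ℝ) * ‖iteratedFDeriv ℝ i chi442 x‖
        * ‖iteratedFDeriv ℝ (l - i) g x‖ = 0 := by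
      refine Finset.sum_eq_zero fun i hi => ?_
      rw [chi_ifd hx i, norm_zero, mul_zero, zero_mul]
    rw [h1]
    positivity

theorem cl_add {k : ℕ} {a b : ℝ} {f g : V n → F} (hf : ContDiff ℝ ∞ f) (hg : ContDiff ℝ ∞ g)
    (h1 : Cl k a f) (h2 : Cl k b g) : Cl k (a + b) (fun x => f x + g x) := by
  intro l hl x
  have e : iteratedFDeriv ℝ l (fun x => f x + g x) x =
      iteratedFDeriv ℝ l f x + iteratedFDeriv ℝ l g x :=
    iteratedFDeriv_add_apply' (hf.of_le (by exact_mod_cast le_top)).contDiffAt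
      (hg.of_le (by exact_mod_cast le_top)).contDiffAt
  rw [e]
  exact (norm_add_le _ _).trans (add_le_add (h1 l hl x) (h2 l hl x))

end

/-- The tensors may be multiplied by a constant. -/
theorem orU_const {Ω : Set (V n)} {s₁ s₂ : MF n} {A₁ A₂ : Cn n N} {a : ℝ} (ha : a ≠ 0)
    (hs₁ : SmM s₁) (hs₂ : SmM s₂) (hA₁ : SmU A₁) (hA₂ : SmU A₂) (h : OrU Ω s₁ A₁ s₂ A₂) :
    OrU Ω (fun x => a • s₁ x) A₁ (fun x => a • s₂ x) A₂ := by
  have hl : ∀ (s : MF n) (A : Cn n N), SmM s → SmU A → ∀ u : V n → Fin N → ℂ, ContDiff ℝ ∞ u →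
      ∀ x, lav (fun x => a • s x) A u x = (a : ℂ) • lav s A u x := by
    intro s A hs hA u hu x
    unfold lav
    rw [Finset.smul_sum]
    refine Finset.sum_congr rfl fun i _ => ?_
    have h1 : (fun y => ∑ j, (((a • s y) i j : ℝ) : ℂ) • cd A j u y)
        = fun y => (a : ℂ) • Vale.Agent.P088.H924.Gf s A u i y := by
      funext y
      unfold Vale.Agent.P088.H924.Gf
      rw [Finset.smul_sum]
      refine Finset.sum_congr rfl fun j _ => ?_
      rw [Matrix.smul_apply, smul_eq_mul, Complex.ofReal_mul, mul_smul]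
    rw [h1, cd_csmul A _ (u := Vale.Agent.P088.H924.Gf s A u i)
      (Vale.Agent.P088.H924.contDiff_Gf hs hA hu i) i x]
    rfl
  have he : ∀ (s : MF n) (A : Cn n N) (u v : V n → Fin N → ℂ),
      ea Ω (fun x => a • s x) A u v = (a : ℂ) * ea Ω s A u v := by
    intro s A u v
    unfold ea
    rw [← integral_const_mul]
    refine integral_congr_ae (Filter.Eventually.of_forall fun y => ?_)
    simp only [Finset.mul_sum]
    refine Finset.sum_congr rfl fun i _ => Finset.sum_congr rfl fun j _ => ?_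
    rw [Matrix.smul_apply, smul_eq_mul, Complex.ofReal_mul]
    ring
  have ha' : (a : ℂ) ≠ 0 := by exact_mod_cast ha
  intro u v hu hv h1 h2
  rw [he, he, h u v hu hv (fun x hx => ?_) (fun x hx => ?_)]
  · have h3 := h1 x hx
    rw [hl s₁ A₁ hs₁ hA₁ u hu x] at h3
    exact (smul_eq_zero.1 h3).resolve_left ha'
  · have h3 := h2 x hx
    rw [hl s₂ A₂ hs₂ hA₂ v hv x] at h3
    exact (smul_eq_zero.1 h3).resolve_left ha'

theorem psh_const {s : MF n} {w K : V n → V n} (a : ℝ) (x : V n) :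
    psh (fun x => a • s x) w K x = a • psh s w K x := by
  unfold psh
  rw [Matrix.mul_smul, Matrix.smul_mul, smul_comm]

end Vale.Agent.P088.H599.S
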