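import Vale.Agent.P088.H599.S.St

/-!
# P088: uniqueness near a given pair of a ball, up to transforms of both pairs, definition
-/

open Set Manifold Vale.Agent.P088.B Vale.Agent.P088.B8 Vale.Agent.P088.H207
open scoped Matrix ContDiff

noncomputable section

namespace Vale.Agent.P088.H599.S

universe u

/-- Uniqueness on every manifold, with data on every patch of the boundary: in a coordinate ball of
radius `r` a transform `P'` of the first pair is `(c δ, α)`; a transform `Q'` of the second pair has
the same connection as `P'` off a closed concentric ball of smaller radius `ρ`, off which the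
metrics are piecewise ordered (e.g. equal), and on the ball the derivatives of order at most `k` of
the differences are at most `B`. -/
def UniqT (n N : ℕ) [NeZero n] (k : ℕ) (c : V n → ℝ)
    (α : Fin n → V n → Matrix (Fin N) (Fin N) ℂ) (r B : ℝ) : Prop :=
  ∀ (M : Type u) [TopologicalSpace M]
    [ChartedSpace (EuclideanHalfSpace n) M] [IsManifold (𝓡∂ n) ∞ M] [T2Space M] [CompactSpace M]
    [ConnectedSpace M] (Z : At n M) (_ : Z = at_ n M) (Γ O₀ : Set M) (_ : IsOpen O₀)
    (_ : Γ = O₀ ∩ bd Z) (_ : Γ.Nonempty) (P P' Q Q' : Pair Z N) (_ : SameData Γ P Q)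
    (_ : Related Γ P P') (_ : Related Γ Q Q') (p : M) (_ : IsBall Z p r)
    (_ : MatchA c α P' p r) (ρ : ℝ) (_ : 0 < ρ) (_ : ρ < r) (_ : PwLe (kball Z p ρ)ᶜ Γ P' Q')
    (_ : ∀ x ∉ kball Z p ρ, Q'.A x = P'.A x) (_ : CloseTo k B (cdel c) Q' p r)
    (_ : CloseToA k B α Q' p r), Related Γ P Q

end Vale.Agent.P088.H599.S

end
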