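import Vale.Agent.P088.H599.S.Bd
import Vale.Agent.P088.H599.S.St2
import Vale.Agent.P088.H207.O1

/-!
# P088: joint uniqueness of the metric and the connection, up to transforms of both pairs
-/

set_option linter.all false

open Bundle Manifold MeasureTheory Set Filter Topology
open scoped ContDiff Matrix ENNReal

noncomputable section

namespace Vale.Agent.P088.H599.S

open Vale.Agent.P088 Vale.Agent.P088.B Vale.Agent.P088.EYM
open Vale.Agent.P088.H207 (kball IsBall MatchA Close CloseA NearC NearA CloseTo cdel)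

universe u

theorem gauge_refl {n N : ℕ} [NeZero n] {M : Type u} [TopologicalSpace M]
    [ChartedSpace (EuclideanHalfSpace n) M] [IsManifold (𝓡∂ n) ∞ M] {Z : At n M}
    (hZ : Z = at_ n M) (Γ : Set M) (A : M → Fin n → Matrix (Fin N) (Fin N) ℂ) :
    Vale.Agent.P088.B.GaugeEq Γ A A Z := by
  subst hZ
  refine ⟨fun _ => 1, fun a b => contMDiffOn_const, fun x => by simp, fun x _ => rfl,
    fun x j => ?_⟩
  have e1 : dM (fun y : Vale.Agent.P088.B.V n => (1 : Matrix (Fin N) (Fin N) ℂ))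
      ((at_ n M).ch x x) j = 0 := by
    ext a b
    unfold dM dj
    simp
  rw [e1]
  simp

theorem uniqT_of {n N : ℕ} [NeZero n] {k : ℕ} {c : B.V n → ℝ}
    {α : Fin n → B.V n → Matrix (Fin N) (Fin N) ℂ} {r B : ℝ} (h : Uniq.{u} n N k c α r B) :
    UniqT.{u} n N k c α r B := by
  intro M _ _ _ _ _ _ Z hZ Γ O₀ hO₀ hΓ hne P P' Q Q' hd hR' hQ' p hp hm ρ hρ hρR hpw hA hcl hclA
  have h1 : Vale.Agent.P088.B.SameData Γ P Q' :=
    Vale.Agent.P088.H207.O.same_symm (Vale.Agent.P088.B.same_related Z hZ hO₀ hΓ hne hQ'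
      (Vale.Agent.P088.H207.O.same_symm hd))
  have h2 : Related Γ P Q' := h M Z hZ Γ O₀ hO₀ hΓ hne P P' Q' Q' h1 hR' rfl
    (gauge_refl hZ Γ Q'.A) p hp hm ρ hρ hρR hpw hA hcl hclA
  subst hZ
  exact Vale.Agent.P088.H207.O.related_tr h2 (Vale.Agent.P088.H207.O.related_inv hQ')

/-- Joint uniqueness near `(c δ, α)`: (I) in small balls, no smallness of `c`, `α` and of the
perturbation; (II) in balls of any size, if `c - 1`, `α` and the perturbation are small. -/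
theorem joint_tr {n N : ℕ} [NeZero n] (hn : 3 ≤ n) (hN : 1 ≤ N) :
    ∃ k : ℕ, (∀ (c : B.V n → ℝ) (α : Fin n → B.V n → Matrix (Fin N) (Fin N) ℂ), SmPair c α →
      ∀ B : ℝ, 0 < B → ∃ r₀ : ℝ, 0 < r₀ ∧ ∀ r : ℝ, 0 < r → r ≤ r₀ → UniqT.{u} n N k c α r B) ∧
    ∀ r : ℝ, 0 < r → ∃ ε : ℝ, 0 < ε ∧ ∀ (c : B.V n → ℝ)
      (α : Fin n → B.V n → Matrix (Fin N) (Fin N) ℂ), NearC k ε c → NearA k ε α →
      UniqT.{u} n N k c α r ε := by
  obtain ⟨k, h1, h2⟩ := joint_bd.{u} (n := n) (N := N) hn hN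
  refine ⟨k, fun c α hca B hB => ?_, fun r hr => ?_⟩
  · obtain ⟨r₀, hr₀, h⟩ := h1 c α hca B hB
    exact ⟨r₀, hr₀, fun r hr hrr => uniqT_of (h r hr hrr)⟩
  · obtain ⟨ε, hε, h⟩ := h2 r hr
    exact ⟨ε, hε, fun c α hc hα => uniqT_of (h c α hc hα)⟩

end Vale.Agent.P088.H599.S

end
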